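import Mathlib

namespace Vale.Agent.H43.P161

open MeasureTheory

variable {V : Type*}

/-- The law on `ℤ` of a random sign with mean `m`: mass `(1 + m) / 2` at `1` and
`(1 - m) / 2` at `-1`. -/
noncomputable def signMeasure (m : ℝ) : Measure ℤ :=
  ENNReal.ofReal ((1 + m) / 2) • Measure.dirac 1 + ENNReal.ofReal ((1 - m) / 2) • Measure.dirac (-1)

/-- The mean of the sign attached to an index: `0` for the root sign (index `none`) and `θ`
for the sign of an unordered pair of vertices (index `some e`). -/
def meanAt (θ : ℝ) (i : Option (Sym2 V)) : ℝ :=
  i.elim 0 (fun _ => θ)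

/-- The set of edges of a path from `o` to `v` in `G` (the unique such path when `G` is a tree). -/
noncomputable def pathEdges (G : SimpleGraph V) (o v : V) : Finset (Sym2 V) :=
  open Classical in
  if h : ∃ p : G.Walk o v, p.IsPath then (Classical.choose h).edges.toFinset else ∅

/-- Broadcasting from the root `o`: the spin at `v` is the root sign times the signs of the
edges on the path from `o` to `v`. -/
noncomputable def broadcast (G : SimpleGraph V) (o : V) (x : Option (Sym2 V) → ℤ) : V → ℤ :=
  fun v => x none * ∏ e ∈ pathEdges G o v, x (some e)

/-- The free Ising measure on the tree `G` with `θ = tanh β`, built from the root `o`: the law of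
the broadcast of independent signs, the root sign being uniform and every edge sign having
mean `θ` (so a child agrees with its parent with probability `(1 + θ) / 2`). -/
noncomputable def isingFree (G : SimpleGraph V) (o : V) (θ : ℝ) : Measure (V → ℤ) :=
  (Measure.infinitePi (fun i : Option (Sym2 V) => signMeasure (meanAt θ i))).map (broadcast G o)

/-- The action of a graph automorphism on configurations: `(g x) v = x (g⁻¹ v)`. -/
def shift {α : Type*} {G : SimpleGraph V} (g : G ≃g G) (x : V → α) : V → α :=
  fun v => x (g.symm v)

/-- `ν` is a factor of IID: the law of `Φ U` for `U` i.i.d. uniform on `[0,1]` and a measurable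
map `Φ` that commutes almost surely with every automorphism of `G`. -/
def IsFIID (G : SimpleGraph V) (ν : Measure (V → ℤ)) : Prop :=
  ∃ Φ : (V → unitInterval) → (V → ℤ), Measurable Φ ∧
    (Measure.infinitePi (fun _ : V => (volume : Measure unitInterval))).map Φ = ν ∧
    ∀ g : G ≃g G, ∀ᵐ U ∂(Measure.infinitePi (fun _ : V => (volume : Measure unitInterval))),
      Φ (shift g U) = shift g (Φ U)

end Vale.Agent.H43.P161
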