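import Vale.Agent.H43.P161.Moments

namespace Vale.Agent.H43.P161

open MeasureTheory Measure Set unitInterval

open scoped Classical

variable {V : Type*}

/-- Reindexing an i.i.d. family along an injective map gives an i.i.d. family. -/
lemma infinitePi_map_comp_injective {J K X : Type*} [MeasurableSpace X] (μ : Measure X)
    [IsProbabilityMeasure μ] (ι : J → K) (hι : Function.Injective ι) :
    (infinitePi (fun _ : K => μ)).map (fun x j => x (ι j)) = infinitePi (fun _ : J => μ) := by
  apply eq_infinitePi
  intro s t ht
  have hmeas : Measurable (fun (x : K → X) j => x (ι j)) :=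
    measurable_pi_lambda _ (fun j => measurable_pi_apply (ι j))
  rw [Measure.map_apply hmeas (MeasurableSet.pi s.countable_toSet (fun j _ => ht j))]
  have hpre : (fun (x : K → X) j => x (ι j)) ⁻¹' ((s : Set J).pi t) =
      ((s.image ι : Finset K) : Set K).pi (Function.extend ι t (fun _ => univ)) := by
    ext x
    simp only [mem_preimage, Set.mem_pi, Finset.mem_coe, Finset.mem_image]
    constructor
    · rintro h k ⟨j, hj, rfl⟩
      rw [hι.extend_apply]
      exact h j hj
    · intro h j hj
      have := h (ι j) ⟨j, hj, rfl⟩
      rwa [hι.extend_apply] at this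
  rw [hpre, infinitePi_pi, Finset.prod_image (fun a _ b _ hab => hι hab)]
  · refine Finset.prod_congr rfl (fun j _ => ?_)
    rw [hι.extend_apply]
  · intro k _
    by_cases hk : ∃ j, ι j = k
    · obtain ⟨j, rfl⟩ := hk
      rw [hι.extend_apply]
      exact ht j
    · rw [Function.extend_apply' _ _ _ hk]
      exact MeasurableSet.univ

/-- Reading a doubly indexed i.i.d. family along an injective map of indices. -/
lemma infinitePi_curry_map_injective {J K L X : Type*} [MeasurableSpace X] (μ : Measure X)
    [IsProbabilityMeasure μ] (ι : J → K × L) (hι : Function.Injective ι) :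
    (infinitePi (fun _ : K => infinitePi (fun _ : L => μ))).map
      (fun b j => b (ι j).1 (ι j).2) = infinitePi (fun _ : J => μ) := by
  have h1 := infinitePi_map_curry_symm (fun (_ : K) (_ : L) => μ)
  have h2 := infinitePi_map_comp_injective μ ι hι
  rw [← h2, ← h1, Measure.map_map]
  · rfl
  · exact measurable_pi_lambda _ (fun j => measurable_pi_apply (ι j))
  · exact (MeasurableEquiv.curry K L X).symm.measurable

/-- Fields read off from disjoint sets of slots are independent: the integral of a product
factorises. -/
lemma integral_prod_fields {N : Type*} [Fintype N] {L X : Type*} [MeasurableSpace X]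
    (μ : Measure X) [IsProbabilityMeasure μ] (slot : N → V → L)
    (hslot : ∀ n n' w, slot n w = slot n' w → n = n')
    (h : N → (V → X) → ℝ) (hh : ∀ n, Measurable (h n)) :
    ∫ b, ∏ n, h n (fun w => b w (slot n w))
      ∂(infinitePi (fun _ : V => infinitePi (fun _ : L => μ))) =
    ∏ n, ∫ x, h n x ∂(infinitePi (fun _ : V => μ)) := by
  set ι : N × V → V × L := fun q => (q.2, slot q.1 q.2) with hι
  have hinj : Function.Injective ι := by
    rintro ⟨n, w⟩ ⟨n', w'⟩ hq
    simp only [hι, Prod.mk.injEq] at hq
    obtain ⟨rfl, h2⟩ := hq
    rw [hslot n n' w h2]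
  have h1 := infinitePi_curry_map_injective μ ι hinj
  have h2 := infinitePi_map_curry (fun (_ : N) (_ : V) => μ)
  have hm1 : Measurable (fun (b : V → L → X) (j : N × V) => b (ι j).1 (ι j).2) :=
    measurable_pi_lambda _ (fun j =>
      (measurable_pi_apply (ι j).2).comp (measurable_pi_apply (ι j).1))
  have hlaw : (infinitePi (fun _ : V => infinitePi (fun _ : L => μ))).map
      (fun b n w => b w (slot n w)) = infinitePi (fun _ : N => infinitePi (fun _ : V => μ)) := by
    rw [← h2, ← h1, Measure.map_map (MeasurableEquiv.curry N V X).measurable hm1]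
    rfl
  have hm2 : Measurable (fun (b : V → L → X) (n : N) (w : V) => b w (slot n w)) :=
    measurable_pi_lambda _ (fun n => measurable_pi_lambda _ (fun w =>
      (measurable_pi_apply (slot n w)).comp (measurable_pi_apply w)))
  have hm3 : Measurable (fun y : N → V → X => ∏ n, h n (y n)) :=
    Finset.measurable_prod _ (fun n _ => (hh n).comp (measurable_pi_apply n))
  have := integral_map (μ := infinitePi (fun _ : V => infinitePi (fun _ : L => μ)))
    hm2.aemeasurable (f := fun y : N → V → X => ∏ n, h n (y n)) hm3.aestronglyMeasurable
  rw [← this, hlaw, infinitePi_eq_pi, integral_fintype_prod_eq_prod]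

/-- A single field read off from arbitrary slots is i.i.d. -/
lemma map_field {L X : Type*} [MeasurableSpace X] (μ : Measure X) [IsProbabilityMeasure μ]
    (slot : V → L) :
    (infinitePi (fun _ : V => infinitePi (fun _ : L => μ))).map (fun b w => b w (slot w)) =
      infinitePi (fun _ : V => μ) := by
  have hinj : Function.Injective (fun w : V => (w, slot w)) := by
    intro w w' h
    exact (Prod.mk.inj h).1
  exact infinitePi_curry_map_injective μ (fun w : V => (w, slot w)) hinj

/-- If every section of `F` has law `ρ`, so does `F` under a product measure. -/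
lemma map_prod_eq_of_forall {α β γ : Type*} [MeasurableSpace α] [MeasurableSpace β]
    [MeasurableSpace γ] (μ : Measure α) [IsProbabilityMeasure μ] (ν : Measure β) [SFinite ν]
    (ρ : Measure γ) (F : α × β → γ) (hF : Measurable F)
    (h : ∀ x, ν.map (fun y => F (x, y)) = ρ) : (μ.prod ν).map F = ρ := by
  ext E hE
  rw [Measure.map_apply hF hE, Measure.prod_apply (hF hE)]
  have : ∀ x, ν (Prod.mk x ⁻¹' (F ⁻¹' E)) = ρ E := by
    intro x
    have hFx : Measurable (fun y => F (x, y)) := hF.comp measurable_prodMk_left
    rw [← h x, Measure.map_apply hFx hE]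
    rfl
  simp [this]

/-- Two distinct coordinates of an i.i.d. uniform family are almost surely different. -/
lemma ae_ne_coord {x y : V} (hxy : x ≠ y) :
    ∀ᵐ a ∂(infinitePi (fun _ : V => (volume : Measure I))), a x ≠ a y := by
  have hm : Measurable (fun a : V → I => (a x, a y)) :=
    (measurable_pi_apply x).prodMk (measurable_pi_apply y)
  have hlaw : (volume : Measure I).prod (volume : Measure I) =
      (infinitePi (fun _ : V => (volume : Measure I))).map (fun a => (a x, a y)) := by
    apply Measure.prod_eq
    intro s t hs ht
    rw [Measure.map_apply hm (hs.prod ht)]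
    have hpre : (fun a : V → I => (a x, a y)) ⁻¹' (s ×ˢ t) =
        (({x, y} : Finset V) : Set V).pi (fun i => if i = x then s else t) := by
      ext a
      simp only [mem_preimage, mem_prod, Set.mem_pi, Finset.coe_insert, Finset.coe_singleton,
        mem_insert_iff, mem_singleton_iff]
      constructor
      · rintro ⟨h1, h2⟩ i (rfl | rfl)
        · simpa using h1
        · simpa [hxy.symm] using h2
      · intro h
        refine ⟨?_, ?_⟩
        · simpa using h x (Or.inl rfl)
        · simpa [hxy.symm] using h y (Or.inr rfl)
    rw [hpre, infinitePi_pi, Finset.prod_pair hxy]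
    · simp [hxy.symm]
    · intro i _
      split_ifs
      · exact hs
      · exact ht
  have hdiag : ((volume : Measure I).prod (volume : Measure I)) {q : I × I | q.1 = q.2} = 0 := by
    have hmd : MeasurableSet {q : I × I | q.1 = q.2} := measurableSet_eq_fun measurable_fst measurable_snd
    rw [Measure.prod_apply hmd]
    have : ∀ s : I, (volume : Measure I) (Prod.mk s ⁻¹' {q : I × I | q.1 = q.2}) = 0 := by
      intro s
      have : Prod.mk s ⁻¹' {q : I × I | q.1 = q.2} = {s} := by
        ext t
        simp [eq_comm]
      rw [this, measure_singleton]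
    rw [lintegral_congr this, lintegral_zero]
  rw [hlaw] at hdiag
  have := (ae_map_iff hm.aemeasurable
    (p := fun q : I × I => q.1 ≠ q.2) (by
      have hmd : MeasurableSet {q : I × I | q.1 = q.2} := measurableSet_eq_fun measurable_fst measurable_snd
      exact hmd.compl)).mp (by
        rw [ae_iff]
        simpa using hdiag)
  exact this

/-- An i.i.d. uniform family indexed by a countable type is almost surely injective. -/
lemma ae_injective [Countable V] :
    ∀ᵐ a ∂(infinitePi (fun _ : V => (volume : Measure I))), Function.Injective a := by
  have : ∀ᵐ a ∂(infinitePi (fun _ : V => (volume : Measure I))), ∀ x y : V, x ≠ y → a x ≠ a y := by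
    rw [ae_all_iff]
    intro x
    rw [ae_all_iff]
    intro y
    by_cases hxy : x = y
    · exact Filter.Eventually.of_forall (fun a h => absurd hxy h)
    · filter_upwards [ae_ne_coord hxy] with a ha _ using ha
  filter_upwards [this] with a ha x y hxy
  by_contra hne
  exact ha x y hne hxy

/-- A uniform label can be split measurably into a uniform label and two independent sequences
of uniform labels. -/
lemma exists_split : ∃ s : I → (I × (ℕ → I)) × (ℕ → I), Measurable s ∧
    (volume : Measure I).map s =
      ((volume : Measure I).prod (infinitePi fun _ : ℕ => (volume : Measure I))).prod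
        (infinitePi fun _ : ℕ => (volume : Measure I)) :=
  Measure.exists_measurable_map_eq _

/-- The law of the three label fields obtained by splitting each label of an i.i.d. uniform
family. -/
lemma map_split {s : I → (I × (ℕ → I)) × (ℕ → I)} (hs : Measurable s)
    (hlaw : (volume : Measure I).map s =
      ((volume : Measure I).prod (infinitePi fun _ : ℕ => (volume : Measure I))).prod
        (infinitePi fun _ : ℕ => (volume : Measure I))) :
    (infinitePi (fun _ : V => (volume : Measure I))).map
      (fun U : V → I => ((fun v => (s (U v)).1.1, fun v => (s (U v)).1.2), fun v => (s (U v)).2)) =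
    ((infinitePi fun _ : V => (volume : Measure I)).prod
      (infinitePi fun _ : V => infinitePi fun _ : ℕ => (volume : Measure I))).prod
      (infinitePi fun _ : V => infinitePi fun _ : ℕ => (volume : Measure I)) := by
  have hZ : (infinitePi (fun _ : V => (volume : Measure I))).map (fun U w => s (U w)) =
      infinitePi (fun _ : V => ((volume : Measure I).prod
        (infinitePi fun _ : ℕ => (volume : Measure I))).prod
        (infinitePi fun _ : ℕ => (volume : Measure I))) := by
    rw [infinitePi_map_pi (μ := fun _ : V => (volume : Measure I)) (f := fun _ => s)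
      (fun _ => hs)]
    simp only [hlaw]
  have hcomp : (fun U : V → I =>
      ((fun v => (s (U v)).1.1, fun v => (s (U v)).1.2), fun v => (s (U v)).2)) =
      (Prod.map unzip id) ∘ unzip ∘ (fun U w => s (U w)) := rfl
  have hm1 : Measurable (fun (U : V → I) (w : V) => s (U w)) := by fun_prop
  have hm2 : Measurable (Prod.map (unzip : (V → I × (ℕ → I)) → (V → I) × (V → ℕ → I))
      (id : (V → ℕ → I) → (V → ℕ → I))) := measurable_unzip.prodMap measurable_id
  rw [hcomp, ← Measure.map_map hm2 (measurable_unzip.comp hm1),
    ← Measure.map_map measurable_unzip hm1, hZ, infinitePi_prod_map_unzip,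
    ← Measure.map_prod_map _ _ measurable_unzip measurable_id, infinitePi_prod_map_unzip,
    Measure.map_id]

/-- The probability that finitely many distinct labels all lie below `p`. -/
lemma prob_all_lt {J : Type*} (F : Finset J) (ι : J → V × ℕ) (hι : Set.InjOn ι F) (p : I) :
    (infinitePi fun _ : V => infinitePi fun _ : ℕ => (volume : Measure I))
      {c | ∀ j ∈ F, c (ι j).1 (ι j).2 < p} = ENNReal.ofReal (p : ℝ) ^ F.card := by
  have hinj : Function.Injective (fun j : F => ι j) := by
    intro j j' h
    exact Subtype.ext (hι j.2 j'.2 h)
  have h1 := infinitePi_curry_map_injective (volume : Measure I) (fun j : F => ι j) hinj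
  have hset : {c : V → ℕ → I | ∀ j ∈ F, c (ι j).1 (ι j).2 < p} =
      (fun (c : V → ℕ → I) (j : F) => c (ι j).1 (ι j).2) ⁻¹'
        (((Finset.univ : Finset F) : Set F).pi (fun _ => Set.Iio p)) := by
    ext c
    simp
  have hm : Measurable (fun (c : V → ℕ → I) (j : F) => c (ι j).1 (ι j).2) :=
    measurable_pi_lambda _ (fun j =>
      (measurable_pi_apply (ι j).2).comp (measurable_pi_apply (ι j).1))
  rw [hset, ← Measure.map_apply hm (MeasurableSet.pi (Finset.countable_toSet _)
    (fun _ _ => measurableSet_Iio)), h1, infinitePi_pi _ (fun _ _ => measurableSet_Iio)]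
  simp [unitInterval.volume_Iio]

end Vale.Agent.H43.P161
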