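import Mathlib

namespace Vale.Agent.H43.P161

open Finset

set_option linter.unusedSectionVars false

variable {V E : Type*} [DecidableEq V] [DecidableEq E]

/-- The number of `v ∈ S` whose edge set `P v` contains `e`. -/
def cnt (P : V → Finset E) (S : Finset V) (e : E) : ℕ := (S.filter (fun v => e ∈ P v)).card

/-- The edges lying in an odd number of the sets `P v`, `v ∈ S`. -/
def oddE (P : V → Finset E) (S : Finset V) : Finset E :=
  (S.biUnion P).filter (fun e => Odd (cnt P S e))

/-- The value of the `S`-moment of the free Ising measure with parameter `θ`. -/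
noncomputable def Mom (P : V → Finset E) (θ : ℝ) (S : Finset V) : ℝ :=
  if Even S.card then θ ^ (oddE P S).card else 0

/-- A family of finite sets is laminar if the members of each set are linearly ordered by
inclusion of the sets of indices that contain them. -/
def Laminar (P : V → Finset E) : Prop :=
  ∀ a, ∀ e ∈ P a, ∀ e' ∈ P a, (∀ v, e' ∈ P v → e ∈ P v) ∨ (∀ v, e ∈ P v → e' ∈ P v)

lemma mem_oddE {P : V → Finset E} {S : Finset V} {e : E} :
    e ∈ oddE P S ↔ Odd (cnt P S e) := by
  unfold oddE
  rw [mem_filter]
  refine ⟨fun h => h.2, fun h => ⟨?_, h⟩⟩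
  have hpos : 0 < cnt P S e := h.pos
  unfold cnt at hpos
  obtain ⟨v, hv⟩ := card_pos.mp hpos
  rw [mem_filter] at hv
  exact mem_biUnion.mpr ⟨v, hv.1, hv.2⟩

lemma cnt_fiberwise (P : V → Finset E) (S : Finset V) {N : Type*} [DecidableEq N] (κ : V → N)
    (e : E) :
    cnt P S e = ∑ n ∈ S.image κ, cnt P (S.filter (fun v => κ v = n)) e := by
  unfold cnt
  rw [card_eq_sum_card_fiberwise (f := κ) (t := S.image κ)]
  · refine sum_congr rfl (fun n _ => ?_)
    rw [filter_comm]
  · intro x hx
    exact mem_coe.mpr (mem_image_of_mem κ (mem_filter.mp (mem_coe.mp hx)).1)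

lemma odd_sum_iff_exists {N : Type*} [DecidableEq N] (T : Finset N) (a : N → ℕ)
    (h : ∀ n ∈ T, ∀ n' ∈ T, Odd (a n) → Odd (a n') → n = n') :
    Odd (∑ n ∈ T, a n) ↔ ∃ n ∈ T, Odd (a n) := by
  rw [odd_sum_iff_odd_card_odd]
  have hle : (T.filter (fun n => Odd (a n))).card ≤ 1 := by
    rw [card_le_one]
    intro x hx y hy
    rw [mem_filter] at hx hy
    exact h x hx.1 y hy.1 hx.2 hy.2
  constructor
  · intro hodd
    have hpos := hodd.pos
    obtain ⟨n, hn⟩ := card_pos.mp hpos
    rw [mem_filter] at hn
    exact ⟨n, hn.1, hn.2⟩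
  · rintro ⟨n, hn, hodd⟩
    have hpos : 0 < (T.filter (fun n => Odd (a n))).card :=
      card_pos.mpr ⟨n, mem_filter.mpr ⟨hn, hodd⟩⟩
    have : (T.filter (fun n => Odd (a n))).card = 1 := by omega
    rw [this]
    exact odd_one

section main

variable (P : V → Finset E) (cl : E → Prop) [DecidablePred cl]

/-- The closed edges of `P v`: the name of the class of `v`. -/
def nameOf (v : V) : Finset E := (P v).filter cl

/-- The class of `S` with name `n`. -/
def fiberOf (S : Finset V) (n : Finset E) : Finset V := S.filter (fun v => nameOf P cl v = n)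

lemma cnt_fiber_closed {S : Finset V} {n : Finset E} {e : E} (he : cl e) :
    cnt P (fiberOf P cl S n) e = if e ∈ n then (fiberOf P cl S n).card else 0 := by
  unfold cnt
  split_ifs with hen
  · congr 1
    apply filter_true_of_mem
    intro v hv
    unfold fiberOf at hv
    rw [mem_filter] at hv
    have : e ∈ nameOf P cl v := by rw [hv.2]; exact hen
    unfold nameOf at this
    exact (mem_filter.mp this).1
  · rw [card_eq_zero]
    apply filter_false_of_mem
    intro v hv hev
    unfold fiberOf at hv
    rw [mem_filter] at hv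
    apply hen
    rw [← hv.2]
    unfold nameOf
    exact mem_filter.mpr ⟨hev, he⟩

/-- If two indices have the same name and `e` separates them, every closed edge of the name
lies above `e`. -/
lemma above_of_sep (hP : Laminar P) {u u' : V} (hname : nameOf P cl u = nameOf P cl u') {e : E}
    (heu : e ∈ P u) (heu' : e ∉ P u') {f : E} (hf : f ∈ nameOf P cl u) :
    ∀ v, e ∈ P v → f ∈ P v := by
  have hfu : f ∈ P u := (mem_filter.mp hf).1
  have hfu' : f ∈ P u' := by
    rw [hname] at hf
    exact (mem_filter.mp hf).1
  rcases hP u e heu f hfu with h | h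
  · exact absurd (h u' hfu') heu'
  · exact h

lemma exists_sep_of_odd {S : Finset V} {n : Finset E} {e : E}
    (heven : Even (fiberOf P cl S n).card) (hodd : Odd (cnt P (fiberOf P cl S n) e)) :
    (∃ u ∈ fiberOf P cl S n, e ∈ P u) ∧ (∃ u ∈ fiberOf P cl S n, e ∉ P u) := by
  constructor
  · have hpos := hodd.pos
    unfold cnt at hpos
    obtain ⟨v, hv⟩ := card_pos.mp hpos
    rw [mem_filter] at hv
    exact ⟨v, hv.1, hv.2⟩
  · by_contra hcon
    push Not at hcon
    have : cnt P (fiberOf P cl S n) e = (fiberOf P cl S n).card := by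
      unfold cnt
      congr 1
      exact filter_true_of_mem hcon
    rw [this] at hodd
    exact (Nat.not_even_iff_odd.mpr hodd) heven

lemma fiber_name {S : Finset V} {n : Finset E} {u : V} (hu : u ∈ fiberOf P cl S n) :
    nameOf P cl u = n := by
  unfold fiberOf at hu
  exact (mem_filter.mp hu).2

/-- Distinct even classes have disjoint odd edge sets. -/
lemma oddE_fiber_disjoint (hP : Laminar P) {S : Finset V} {n n' : Finset E} {e : E}
    (heven : Even (fiberOf P cl S n).card) (heven' : Even (fiberOf P cl S n').card)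
    (hodd : Odd (cnt P (fiberOf P cl S n) e)) (hodd' : Odd (cnt P (fiberOf P cl S n') e)) :
    n = n' := by
  obtain ⟨⟨u, hu, heu⟩, ⟨ub, hub, heub⟩⟩ := exists_sep_of_odd P cl heven hodd
  obtain ⟨⟨u', hu', heu'⟩, ⟨ub', hub', heub'⟩⟩ := exists_sep_of_odd P cl heven' hodd'
  have h1 := fiber_name P cl hu
  have h2 := fiber_name P cl hub
  have h1' := fiber_name P cl hu'
  have h2' := fiber_name P cl hub'
  have key : ∀ {a ab b : V} , nameOf P cl a = nameOf P cl ab → e ∈ P a → e ∉ P ab → e ∈ P b →
      nameOf P cl a ⊆ nameOf P cl b := by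
    intro a ab b hab hea heab heb f hf
    have := above_of_sep P cl hP hab hea heab hf b heb
    unfold nameOf
    exact mem_filter.mpr ⟨this, (mem_filter.mp hf).2⟩
  rw [← h1, ← h1']
  exact Subset.antisymm (key (h1.trans h2.symm) heu heub heu')
    (key (h1'.trans h2'.symm) heu' heub' heu)

/-- In a class of even size, the odd edges are open. -/
lemma open_of_oddE_fiber {S : Finset V} {n : Finset E} {e : E}
    (heven : Even (fiberOf P cl S n).card) (hodd : Odd (cnt P (fiberOf P cl S n) e)) : ¬ cl e := by
  intro he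
  rw [cnt_fiber_closed P cl he] at hodd
  split_ifs at hodd
  · exact (Nat.not_even_iff_odd.mpr hodd) heven
  · exact (Nat.not_even_iff_odd.mpr hodd) ⟨0, rfl⟩

lemma card_eq_sum_fiber (S : Finset V) :
    S.card = ∑ n ∈ S.image (nameOf P cl), (fiberOf P cl S n).card :=
  card_eq_sum_card_image (nameOf P cl) S

lemma cnt_eq_sum_fiber (S : Finset V) (e : E) :
    cnt P S e = ∑ n ∈ S.image (nameOf P cl), cnt P (fiberOf P cl S n) e :=
  cnt_fiberwise P S (nameOf P cl) e

/-- Among an even number (at least two) of distinct names there is a closed edge lying in an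
odd number of them. -/
lemma exists_odd_edge (hP : Laminar P) (S : Finset V) (T : Finset (Finset E))
    (hT : T ⊆ S.image (nameOf P cl)) (hne : T.Nonempty) (heven : Even T.card) :
    ∃ e, cl e ∧ Odd (T.filter (fun n => e ∈ n)).card := by
  classical
  -- candidate edges
  set C : Finset E := T.biUnion id with hC
  have hcl : ∀ e ∈ C, cl e := by
    intro e he
    rw [hC, mem_biUnion] at he
    obtain ⟨n, hn, hen⟩ := he
    obtain ⟨v, -, rfl⟩ := mem_image.mp (hT hn)
    exact (mem_filter.mp hen).2
  have hCne : C.Nonempty := by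
    have h2 : 1 < T.card := by
      have hpos := card_pos.mpr hne
      rcases heven with ⟨k, hk⟩
      omega
    obtain ⟨n1, hn1, n2, hn2, hne12⟩ := one_lt_card.mp h2
    by_contra hemp
    rw [not_nonempty_iff_eq_empty] at hemp
    have e1 : n1 = ∅ := by
      rw [eq_empty_iff_forall_notMem]
      intro x hx
      have : x ∈ C := by rw [hC]; exact mem_biUnion.mpr ⟨n1, hn1, hx⟩
      rw [hemp] at this
      exact absurd this (notMem_empty x)
    have e2 : n2 = ∅ := by
      rw [eq_empty_iff_forall_notMem]
      intro x hx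
      have : x ∈ C := by rw [hC]; exact mem_biUnion.mpr ⟨n2, hn2, hx⟩
      rw [hemp] at this
      exact absurd this (notMem_empty x)
    exact hne12 (e1.trans e2.symm)
  obtain ⟨e, heC, hmin⟩ := exists_min_image C (fun e => (T.filter (fun n => e ∈ n)).card) hCne
  refine ⟨e, hcl e heC, ?_⟩
  by_contra hnodd
  rw [Nat.not_odd_iff_even] at hnodd
  have hpos : 0 < (T.filter (fun n => e ∈ n)).card := by
    rw [hC, mem_biUnion] at heC
    obtain ⟨n, hn, hen⟩ := heC
    exact card_pos.mpr ⟨n, mem_filter.mpr ⟨hn, hen⟩⟩
  have h2 : 1 < (T.filter (fun n => e ∈ n)).card := by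
    rcases hnodd with ⟨k, hk⟩
    omega
  obtain ⟨n, hn, n', hn', hnn'⟩ := one_lt_card.mp h2
  rw [mem_filter] at hn hn'
  -- an edge in exactly one of n, n'
  have hex : ∃ m m' : Finset E, m ∈ T ∧ m' ∈ T ∧ e ∈ m ∧ e ∈ m' ∧ ∃ f, f ∈ m ∧ f ∉ m' := by
    by_contra hcon
    push Not at hcon
    apply hnn'
    apply Subset.antisymm
    · intro f hf
      exact hcon n n' hn.1 hn'.1 hn.2 hn'.2 f hf
    · intro f hf
      exact hcon n' n hn'.1 hn.1 hn'.2 hn.2 f hf
  obtain ⟨m, m', hm, hm', hem, hem', f, hfm, hfm'⟩ := hex
  obtain ⟨u, -, hu⟩ := mem_image.mp (hT hm)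
  obtain ⟨u', -, hu'⟩ := mem_image.mp (hT hm')
  have heu : e ∈ P u := by
    rw [← hu] at hem
    exact (mem_filter.mp hem).1
  have hfu : f ∈ P u := by
    rw [← hu] at hfm
    exact (mem_filter.mp hfm).1
  have heu' : e ∈ P u' := by
    rw [← hu'] at hem'
    exact (mem_filter.mp hem').1
  have hclf : cl f := by
    rw [← hu] at hfm
    exact (mem_filter.mp hfm).2
  have hcle : cl e := hcl e heC
  have hfC : f ∈ C := by rw [hC]; exact mem_biUnion.mpr ⟨m, hm, hfm⟩
  rcases hP u e heu f hfu with h | h
  · -- every name containing f contains e, and m' contains e but not f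
    have hsub : T.filter (fun n => f ∈ n) ⊂ T.filter (fun n => e ∈ n) := by
      rw [ssubset_iff_of_subset]
      · refine ⟨m', mem_filter.mpr ⟨hm', hem'⟩, ?_⟩
        intro hcon
        exact hfm' (mem_filter.mp hcon).2
      · intro k hk
        rw [mem_filter] at hk ⊢
        refine ⟨hk.1, ?_⟩
        obtain ⟨w, -, hw⟩ := mem_image.mp (hT hk.1)
        rw [← hw]
        have hfw : f ∈ P w := by
          have := hk.2
          rw [← hw] at this
          exact (mem_filter.mp this).1
        exact mem_filter.mpr ⟨h w hfw, hcle⟩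
    have := card_lt_card hsub
    have := hmin f hfC
    omega
  · have : f ∈ m' := by
      rw [← hu']
      exact mem_filter.mpr ⟨h u' heu', hclf⟩
    exact hfm' this

/-- The key identity: the product over the classes of `S` (indices with the same closed edges on the
root path) of the class moments equals the `S`-moment restricted to the event that all odd edges
are open. -/
theorem class_prod (hP : Laminar P) (θ : ℝ) (S : Finset V) :
    ∏ n ∈ S.image (nameOf P cl), Mom P θ (fiberOf P cl S n) =
      if Even S.card ∧ ∀ e ∈ oddE P S, ¬ cl e then θ ^ (oddE P S).card else 0 := by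
  classical
  by_cases hall : ∀ n ∈ S.image (nameOf P cl), Even (fiberOf P cl S n).card
  · -- all classes even
    have hS : Even S.card := by
      rw [card_eq_sum_fiber P cl S]
      exact even_sum _ hall
    have hmem : ∀ e, e ∈ oddE P S ↔ ∃ n ∈ S.image (nameOf P cl), e ∈ oddE P (fiberOf P cl S n) := by
      intro e
      rw [mem_oddE, cnt_eq_sum_fiber P cl S e, odd_sum_iff_exists]
      · simp only [mem_oddE]
      · intro n hn n' hn' ho ho'
        exact oddE_fiber_disjoint P cl hP (hall n hn) (hall n' hn') ho ho'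
    have hopen : ∀ e ∈ oddE P S, ¬ cl e := by
      intro e he
      obtain ⟨n, hn, hen⟩ := (hmem e).mp he
      exact open_of_oddE_fiber P cl (hall n hn) (mem_oddE.mp hen)
    have hunion : oddE P S = (S.image (nameOf P cl)).biUnion (fun n => oddE P (fiberOf P cl S n)) := by
      ext e
      rw [hmem e, mem_biUnion]
    have hcard : (oddE P S).card = ∑ n ∈ S.image (nameOf P cl), (oddE P (fiberOf P cl S n)).card := by
      rw [hunion, card_biUnion]
      intro n hn n' hn' hnn'
      change Disjoint (oddE P (fiberOf P cl S n)) (oddE P (fiberOf P cl S n'))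
      rw [Finset.disjoint_left]
      intro e he he'
      exact hnn' (oddE_fiber_disjoint P cl hP (hall n hn) (hall n' hn') (mem_oddE.mp he)
        (mem_oddE.mp he'))
    rw [if_pos ⟨hS, hopen⟩, hcard, ← prod_pow_eq_pow_sum]
    refine prod_congr rfl (fun n hn => ?_)
    unfold Mom
    rw [if_pos (hall n hn)]
  · -- some class is odd
    push Not at hall
    obtain ⟨n₀, hn₀, hodd₀⟩ := hall
    have hL : ∏ n ∈ S.image (nameOf P cl), Mom P θ (fiberOf P cl S n) = 0 := by
      apply prod_eq_zero hn₀
      unfold Mom
      rw [if_neg hodd₀]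
    rw [hL]
    symm
    apply if_neg
    rintro ⟨hS, hopen⟩
    set T : Finset (Finset E) :=
      (S.image (nameOf P cl)).filter (fun n => Odd (fiberOf P cl S n).card) with hT
    have hTne : T.Nonempty := ⟨n₀, mem_filter.mpr ⟨hn₀, Nat.not_even_iff_odd.mp hodd₀⟩⟩
    have hTeven : Even T.card := by
      rw [hT, ← even_sum_iff_even_card_odd, ← card_eq_sum_fiber P cl S]
      exact hS
    obtain ⟨e, hcle, hodd⟩ := exists_odd_edge P cl hP S T (filter_subset _ _) hTne hTeven
    have : Odd (cnt P S e) := by
      rw [cnt_eq_sum_fiber P cl S e, odd_sum_iff_odd_card_odd]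
      have : (S.image (nameOf P cl)).filter (fun n => Odd (cnt P (fiberOf P cl S n) e)) =
          T.filter (fun n => e ∈ n) := by
        rw [hT, filter_filter]
        apply filter_congr
        intro n hn
        rw [cnt_fiber_closed P cl hcle]
        split_ifs with hen
        · simp [hen]
        · simp [hen]
      rw [this]
      exact hodd
    exact hopen e (mem_oddE.mpr this) hcle

end main

end Vale.Agent.H43.P161
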