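import Vale.Agent.H43.P161.Semigroup
import Vale.Agent.H43.P161.Parity

namespace Vale.Agent.H43.P161

open MeasureTheory Measure Set

open scoped Classical

variable {V : Type*}

/-- Under a product measure, the integral of a finite product of functions of distinct
coordinates is the product of the integrals. -/
lemma integral_finset_prod_infinitePi {ι : Type*} {X : ι → Type*} [∀ i, MeasurableSpace (X i)]
    (μ : ∀ i, Measure (X i)) [∀ i, IsProbabilityMeasure (μ i)] (s : Finset ι)
    (g : ∀ i, X i → ℝ) (hg : ∀ i ∈ s, Measurable (g i)) :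
    ∫ x, ∏ i ∈ s, g i (x i) ∂(infinitePi μ) = ∏ i ∈ s, ∫ t, g i t ∂(μ i) := by
  have h1 : ∀ x : (∀ i, X i), ∏ i ∈ s, g i (x i) =
      (fun y : (∀ i : s, X i) => ∏ i : s, g i (y i)) (s.restrict x) := by
    intro x
    simp only [Finset.restrict]
    rw [Finset.prod_coe_sort s (fun i => g i (x i))]
  have hmeas : AEStronglyMeasurable (fun y : (∀ i : s, X i) => ∏ i : s, g i (y i))
      (Measure.pi (fun i : s => μ i)) := by
    apply Measurable.aestronglyMeasurable
    exact Finset.measurable_prod _ (fun i _ => (hg i i.2).comp (measurable_pi_apply i))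
  have h2 := integral_restrict_infinitePi (μ := μ) (s := s)
    (f := fun y : (∀ i : s, X i) => ∏ i : s, g i (y i)) hmeas
  calc ∫ x, ∏ i ∈ s, g i (x i) ∂(infinitePi μ)
      = ∫ x, (fun y : (∀ i : s, X i) => ∏ i : s, g i (y i)) (s.restrict x) ∂(infinitePi μ) := by
        congr 1
        funext x
        exact h1 x
    _ = ∫ y, ∏ i : s, g i (y i) ∂Measure.pi (fun i : s => μ i) := h2
    _ = ∏ i : s, ∫ t, g i t ∂(μ i) := integral_fintype_prod_eq_prod (fun i : s => g i)
    _ = ∏ i ∈ s, ∫ t, g i t ∂(μ i) := Finset.prod_coe_sort s (fun i => ∫ t, g i t ∂(μ i))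

lemma integral_pow_signMeasure {m : ℝ} (hm : |m| ≤ 1) (k : ℕ) :
    ∫ t, ((t : ℤ) : ℝ) ^ k ∂(signMeasure m) = if Even k then 1 else m := by
  have h1 : 0 ≤ (1 + m) / 2 := by linarith [(abs_le.mp hm).1]
  have h2 : 0 ≤ (1 - m) / 2 := by linarith [(abs_le.mp hm).2]
  unfold signMeasure
  rw [integral_add_measure, integral_smul_measure, integral_smul_measure, integral_dirac,
    integral_dirac, ENNReal.toReal_ofReal h1, ENNReal.toReal_ofReal h2]
  · split_ifs with hk
    · simp only [Int.cast_one, one_pow, Int.cast_neg, hk.neg_pow, smul_eq_mul]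
      ring
    · rw [Nat.not_even_iff_odd] at hk
      simp only [Int.cast_one, one_pow, Int.cast_neg, hk.neg_pow, smul_eq_mul]
      ring
  · exact (integrable_dirac (by simp)).smul_measure ENNReal.ofReal_ne_top
  · exact (integrable_dirac (by simp)).smul_measure ENNReal.ofReal_ne_top

lemma signMeasure_ae {m : ℝ} : ∀ᵐ t ∂(signMeasure m), t = 1 ∨ t = -1 := by
  unfold signMeasure
  rw [ae_add_measure_iff]
  constructor
  · apply Measure.ae_smul_measure
    rw [ae_dirac_iff (MeasurableSet.of_discrete)]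
    exact Or.inl rfl
  · apply Measure.ae_smul_measure
    rw [ae_dirac_iff (MeasurableSet.of_discrete)]
    exact Or.inr rfl

lemma measurable_spinProd (S : Finset V) :
    Measurable (fun σ : V → ℤ => ∏ v ∈ S, (σ v : ℝ)) :=
  Finset.measurable_prod _ (fun v _ => (Measurable.of_discrete (f := fun z : ℤ => (z : ℝ))).comp
    (measurable_pi_apply v))

/-- The moments of the free Ising measure. -/
theorem isingFree_moment (G : SimpleGraph V) (o : V) {θ : ℝ} (hθ : |θ| ≤ 1) (S : Finset V) :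
    ∫ σ, ∏ v ∈ S, (σ v : ℝ) ∂(isingFree G o θ) = Mom (pathEdges G o) θ S := by
  have : ∀ i : Option (Sym2 V), IsProbabilityMeasure (signMeasure (meanAt θ i)) :=
    fun i => isProbabilityMeasure_signMeasure (abs_meanAt_le hθ i)
  unfold isingFree
  rw [integral_map (measurable_broadcast G o).aemeasurable
    (measurable_spinProd S).aestronglyMeasurable]
  set U : Finset (Sym2 V) := S.biUnion (pathEdges G o) with hU
  set g : ∀ i : Option (Sym2 V), ℤ → ℝ := fun i t =>
    (t : ℝ) ^ (i.elim S.card (fun e => cnt (pathEdges G o) S e)) with hg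
  have hint : ∀ x : Option (Sym2 V) → ℤ, ∏ v ∈ S, ((broadcast G o x v : ℤ) : ℝ) =
      ∏ i ∈ Finset.insertNone U, g i (x i) := by
    intro x
    rw [Finset.prod_insertNone]
    simp only [hg, Option.elim_none, Option.elim_some, broadcast, Int.cast_mul, Int.cast_prod]
    rw [Finset.prod_mul_distrib, Finset.prod_const]
    congr 1
    have h1 : ∀ v ∈ S, ∏ e ∈ pathEdges G o v, ((x (some e) : ℤ) : ℝ) =
        ∏ e ∈ U, if e ∈ pathEdges G o v then ((x (some e) : ℤ) : ℝ) else 1 := by
      intro v hv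
      rw [← Finset.prod_filter]
      congr 1
      ext e
      rw [Finset.mem_filter, hU, Finset.mem_biUnion]
      exact ⟨fun h => ⟨⟨v, hv, h⟩, h⟩, fun h => h.2⟩
    rw [Finset.prod_congr rfl h1, Finset.prod_comm]
    refine Finset.prod_congr rfl (fun e _ => ?_)
    rw [← Finset.prod_filter, Finset.prod_const]
    rfl
  simp_rw [hint]
  rw [integral_finset_prod_infinitePi _ _ g (fun i _ => Measurable.of_discrete),
    Finset.prod_insertNone]
  simp only [hg, Option.elim_none, Option.elim_some]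
  have e0 : ∫ t, ((t : ℤ) : ℝ) ^ S.card ∂(signMeasure (meanAt θ (none : Option (Sym2 V)))) =
      if Even S.card then 1 else 0 := by
    have : meanAt θ (none : Option (Sym2 V)) = 0 := rfl
    rw [this, integral_pow_signMeasure (by simp)]
  have e1 : ∀ e : Sym2 V, ∫ t, ((t : ℤ) : ℝ) ^ (cnt (pathEdges G o) S e)
      ∂(signMeasure (meanAt θ (some e))) = if Even (cnt (pathEdges G o) S e) then 1 else θ := by
    intro e
    have : meanAt θ (some e) = θ := rfl
    rw [this, integral_pow_signMeasure hθ]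
  rw [e0]
  simp_rw [e1]
  unfold Mom
  have e2 : ∏ e ∈ U, (if Even (cnt (pathEdges G o) S e) then (1 : ℝ) else θ) =
      θ ^ (oddE (pathEdges G o) S).card := by
    rw [Finset.prod_ite, Finset.prod_const_one, one_mul, Finset.prod_const]
    congr 2
    unfold oddE
    apply Finset.filter_congr
    intro e _
    exact Nat.not_even_iff_odd
  rw [e2]
  split_ifs <;> simp

lemma prod_sign {ι : Type*} (s : Finset ι) (f : ι → ℤ) (h : ∀ i ∈ s, f i = 1 ∨ f i = -1) :
    ∏ i ∈ s, f i = 1 ∨ ∏ i ∈ s, f i = -1 := by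
  apply Finset.prod_induction f (fun z => z = 1 ∨ z = -1)
  · rintro a b (rfl | rfl) (rfl | rfl) <;> simp
  · exact Or.inl rfl
  · exact h

lemma measurableSet_signs [Countable V] :
    MeasurableSet {σ : V → ℤ | ∀ v, σ v = 1 ∨ σ v = -1} := by
  have : {σ : V → ℤ | ∀ v, σ v = 1 ∨ σ v = -1} = ⋂ v, (fun σ : V → ℤ => σ v) ⁻¹' {1, -1} := by
    ext σ
    simp
  rw [this]
  exact MeasurableSet.iInter (fun v => measurable_pi_apply v (MeasurableSet.of_discrete))

/-- The free Ising measure is carried by the sign configurations. -/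
lemma isingFree_ae_sign [Countable V] (G : SimpleGraph V) (o : V) {θ : ℝ} (hθ : |θ| ≤ 1) :
    ∀ᵐ σ ∂(isingFree G o θ), ∀ v, σ v = 1 ∨ σ v = -1 := by
  have : ∀ i : Option (Sym2 V), IsProbabilityMeasure (signMeasure (meanAt θ i)) :=
    fun i => isProbabilityMeasure_signMeasure (abs_meanAt_le hθ i)
  unfold isingFree
  rw [ae_map_iff (measurable_broadcast G o).aemeasurable measurableSet_signs]
  have hx : ∀ᵐ x ∂(infinitePi (fun i : Option (Sym2 V) => signMeasure (meanAt θ i))),
      ∀ i, x i = 1 ∨ x i = -1 := by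
    rw [ae_all_iff]
    intro i
    have hmp := measurePreserving_eval_infinitePi
      (fun i : Option (Sym2 V) => signMeasure (meanAt θ i)) i
    exact hmp.quasiMeasurePreserving.ae (signMeasure_ae (m := meanAt θ i))
  filter_upwards [hx] with x hx v
  unfold broadcast
  rcases hx none with h0 | h0 <;>
    rcases prod_sign (pathEdges G o v) (fun e => x (some e)) (fun e _ => hx (some e)) with h1 | h1
  · left; rw [h0, h1]; rfl
  · right; rw [h0, h1]; rfl
  · right; rw [h0, h1]; rfl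
  · left; rw [h0, h1]; rfl

instance isProbabilityMeasure_isingFree' (G : SimpleGraph V) (o : V) {θ : ℝ}
    [Fact (|θ| ≤ 1)] : IsProbabilityMeasure (isingFree G o θ) := by
  have hθ : |θ| ≤ 1 := Fact.out
  have : ∀ i : Option (Sym2 V), IsProbabilityMeasure (signMeasure (meanAt θ i)) :=
    fun i => isProbabilityMeasure_signMeasure (abs_meanAt_le hθ i)
  unfold isingFree
  exact isProbabilityMeasure_map (measurable_broadcast G o).aemeasurable

/-- The measure of a square cylinder under a measure carried by sign configurations, in terms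
of its moments. -/
lemma cylinder_measure_eq (ν : Measure (V → ℤ)) [IsProbabilityMeasure ν]
    (h : ∀ᵐ σ ∂ν, ∀ v, σ v = 1 ∨ σ v = -1) (S : Finset V) (t : V → Set ℤ) :
    ν ((S : Set V).pi t) = ENNReal.ofReal (∑ T ∈ S.powerset,
      (∏ v ∈ T, ((t v).indicator (1 : ℤ → ℝ) 1 - (t v).indicator (1 : ℤ → ℝ) (-1)) / 2) *
      (∏ v ∈ S \ T, ((t v).indicator (1 : ℤ → ℝ) 1 + (t v).indicator (1 : ℤ → ℝ) (-1)) / 2) *
      ∫ σ, ∏ v ∈ T, (σ v : ℝ) ∂ν) := by
  have hA : MeasurableSet ((S : Set V).pi t) :=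
    MeasurableSet.pi S.countable_toSet (fun v _ => MeasurableSet.of_discrete)
  rw [← ofReal_measureReal, ← integral_indicator_one hA]
  congr 1
  have hint : ∀ T ∈ S.powerset, Integrable (fun σ : V → ℤ =>
      (∏ v ∈ T, ((t v).indicator (1 : ℤ → ℝ) 1 - (t v).indicator (1 : ℤ → ℝ) (-1)) / 2) *
      (∏ v ∈ S \ T, ((t v).indicator (1 : ℤ → ℝ) 1 + (t v).indicator (1 : ℤ → ℝ) (-1)) / 2) *
      ∏ v ∈ T, (σ v : ℝ)) ν := by
    intro T _
    apply Integrable.const_mul
    apply Integrable.of_bound (measurable_spinProd T).aestronglyMeasurable 1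
    filter_upwards [h] with σ hσ
    have := prod_sign T σ (fun v _ => hσ v)
    rw [← Int.cast_prod]
    rcases this with h1 | h1 <;> rw [h1] <;> simp
  have hsum : ∑ T ∈ S.powerset,
      (∏ v ∈ T, ((t v).indicator (1 : ℤ → ℝ) 1 - (t v).indicator (1 : ℤ → ℝ) (-1)) / 2) *
      (∏ v ∈ S \ T, ((t v).indicator (1 : ℤ → ℝ) 1 + (t v).indicator (1 : ℤ → ℝ) (-1)) / 2) *
      ∫ σ, ∏ v ∈ T, (σ v : ℝ) ∂ν = ∫ σ, ∑ T ∈ S.powerset,
      (∏ v ∈ T, ((t v).indicator (1 : ℤ → ℝ) 1 - (t v).indicator (1 : ℤ → ℝ) (-1)) / 2) *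
      (∏ v ∈ S \ T, ((t v).indicator (1 : ℤ → ℝ) 1 + (t v).indicator (1 : ℤ → ℝ) (-1)) / 2) *
      ∏ v ∈ T, (σ v : ℝ) ∂ν := by
    rw [integral_finsetSum _ hint]
    refine Finset.sum_congr rfl (fun T _ => ?_)
    rw [integral_const_mul]
  rw [hsum]
  apply integral_congr_ae
  filter_upwards [h] with σ hσ
  have h1 : ((S : Set V).pi t).indicator (1 : (V → ℤ) → ℝ) σ =
      ∏ v ∈ S, (t v).indicator (1 : ℤ → ℝ) (σ v) := by
    simp only [Set.indicator, Set.mem_pi, Finset.mem_coe, Pi.one_apply]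
    rw [Finset.prod_ite_zero]
    simp
  have h2 : ∀ v, (t v).indicator (1 : ℤ → ℝ) (σ v) =
      ((t v).indicator (1 : ℤ → ℝ) 1 - (t v).indicator (1 : ℤ → ℝ) (-1)) / 2 * (σ v : ℝ) +
      ((t v).indicator (1 : ℤ → ℝ) 1 + (t v).indicator (1 : ℤ → ℝ) (-1)) / 2 := by
    intro v
    rcases hσ v with hv | hv <;> rw [hv] <;> push_cast <;> ring
  rw [h1]
  simp_rw [h2]
  rw [Finset.prod_add]
  refine Finset.sum_congr rfl (fun T _ => ?_)
  rw [Finset.prod_mul_distrib]
  ring

/-- Two probability measures carried by sign configurations with the same moments are equal. -/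
theorem measure_eq_of_moments (ν₁ ν₂ : Measure (V → ℤ)) [IsProbabilityMeasure ν₁]
    [IsProbabilityMeasure ν₂]
    (h₁ : ∀ᵐ σ ∂ν₁, ∀ v, σ v = 1 ∨ σ v = -1) (h₂ : ∀ᵐ σ ∂ν₂, ∀ v, σ v = 1 ∨ σ v = -1)
    (hmom : ∀ S : Finset V, ∫ σ, ∏ v ∈ S, (σ v : ℝ) ∂ν₁ = ∫ σ, ∏ v ∈ S, (σ v : ℝ) ∂ν₂) :
    ν₁ = ν₂ := by
  refine ext_of_generate_finite (squareCylinders fun _ : V => {s : Set ℤ | MeasurableSet s})
    generateFrom_squareCylinders.symm
    (isPiSystem_squareCylinders (fun _ => MeasurableSpace.isPiSystem_measurableSet) (by simp))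
    ?_ (by simp)
  rintro _ ⟨S, t, -, rfl⟩
  rw [cylinder_measure_eq ν₁ h₁, cylinder_measure_eq ν₂ h₂]
  simp_rw [hmom]

end Vale.Agent.H43.P161
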