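import Vale.Agent.H43.P161.Rank

namespace Vale.Agent.H43.P161

open MeasureTheory Measure Set unitInterval SimpleGraph

open scoped Classical

variable {V : Type*} (G : SimpleGraph V)

/-- The law of i.i.d. uniform labels. -/
noncomputable abbrev PU (V : Type*) : Measure (V → I) :=
  infinitePi (fun _ : V => (volume : Measure I))

/-- The law of i.i.d. sequences of i.i.d. uniform labels. -/
noncomputable abbrev PB (V : Type*) : Measure (V → ℕ → I) :=
  infinitePi (fun _ : V => infinitePi (fun _ : ℕ => (volume : Measure I)))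

/-- A factor map for the free Ising measure may be taken with values in the signs. -/
lemma exists_sign_factor [Countable V] (o : V) {θ : ℝ} (hθ : |θ| ≤ 1)
    (h : IsFIID G (isingFree G o θ)) :
    ∃ Φ : (V → I) → (V → ℤ), Measurable Φ ∧ (PU V).map Φ = isingFree G o θ ∧
      (∀ g : G ≃g G, ∀ᵐ U ∂(PU V), Φ (shift g U) = shift g (Φ U)) ∧
      ∀ X v, Φ X v = 1 ∨ Φ X v = -1 := by
  obtain ⟨Φ, hm, hlaw, heq⟩ := h
  set cl : ℤ → ℤ := fun z => if z = 1 then 1 else -1 with hcl
  have hclm : Measurable (fun (sg : V → ℤ) (v : V) => cl (sg v)) :=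
    measurable_pi_lambda _ (fun v => (Measurable.of_discrete (f := cl)).comp (measurable_pi_apply v))
  refine ⟨fun X v => cl (Φ X v), hclm.comp hm, ?_, ?_, ?_⟩
  · have hc : (fun X v => cl (Φ X v)) = (fun (sg : V → ℤ) (v : V) => cl (sg v)) ∘ Φ := rfl
    rw [hc, ← Measure.map_map hclm hm, hlaw]
    have hae : (fun (sg : V → ℤ) (v : V) => cl (sg v)) =ᵐ[isingFree G o θ] id := by
      filter_upwards [isingFree_ae_sign G o hθ] with sg hsg
      funext v
      rcases hsg v with h | h <;> simp [hcl, h]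
    rw [Measure.map_congr hae, Measure.map_id]
  · intro g
    filter_upwards [heq g] with U hU
    funext v
    change cl (Φ (shift g U) v) = cl (Φ U (g.symm v))
    rw [hU]
    rfl
  · intro X v
    by_cases h : Φ X v = 1 <;> simp [hcl, h]

/-- The thinned field: at `v`, apply the factor map to the label field of the cluster of `v`. -/
noncomputable def thin (Φ : (V → I) → (V → ℤ)) (p : I)
    (q : ((V → I) × (V → ℕ → I)) × (V → ℕ → I)) : V → ℤ :=
  fun v => Φ (field G q.1.1 q.2 q.1.2 p v) v

lemma measurable_thin (hfin : ∀ w k, {x | (pathEdges G w x).card = k}.Finite)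
    {Φ : (V → I) → (V → ℤ)} (hΦm : Measurable Φ) (p : I) : Measurable (thin G Φ p) :=
  measurable_pi_lambda _ (fun v =>
    (measurable_pi_apply v).comp (hΦm.comp (measurable_field G hfin p v)))

/-- Integrating out the field labels: the classes are independent copies. -/
lemma inner_b (hG : G.IsTree) (hfin : ∀ w k, {x | (pathEdges G w x).card = k}.Finite) (o : V)
    {θ : ℝ} (hθ : |θ| ≤ 1) {Φ : (V → I) → (V → ℤ)} (hΦm : Measurable Φ)
    (hΦlaw : (PU V).map Φ = isingFree G o θ) (p : I) {a : V → I} (ha : Function.Injective a)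
    (c : V → ℕ → I) (S : Finset V) :
    ∫ b, ∏ v ∈ S, ((thin G Φ p ((a, c), b) v : ℤ) : ℝ) ∂(PB V) =
      if Even S.card ∧ ∀ e ∈ oddE (pathEdges G o) S, opn G a c p e
        then θ ^ (oddE (pathEdges G o) S).card else 0 := by
  set P := pathEdges G o with hP
  set cl := closedE G a c p with hcl
  set N := S.image (nameOf P cl) with hN
  have hrep : ∀ n : N, ∃ v ∈ S, nameOf P cl v = n := fun n => Finset.mem_image.mp n.2
  choose rep hrepS hrepn using hrep
  have hname : ∀ u v : V, nameOf P cl u = nameOf P cl v ↔ ∀ e ∈ pathEdges G u v, ¬ cl e :=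
    fun u v => filter_closed_eq_iff G hG cl o u v
  have hfield : ∀ (n : N) (v : V), v ∈ fiberOf P cl S n → ∀ b : V → ℕ → I,
      field G a b c p v = field G a b c p (rep n) := by
    intro n v hv b
    have h1 : nameOf P cl v = nameOf P cl (rep n) := by
      rw [fiber_name P cl hv, hrepn n]
    have h2 := (hname v (rep n)).mp h1
    funext w
    unfold field
    rw [nm_eq_of_open G hG (fun e he => not_not.mp (h2 e he)) w]
  have hslot : ∀ (n n' : N) (w : V), nm G a c p w (rep n) = nm G a c p w (rep n') → n = n' := by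
    intro n n' w h
    have h1 := open_of_nm_eq G hG hfin ha h
    have h2 := (hname (rep n) (rep n')).mpr (fun e he hc => hc (h1 e he))
    rw [hrepn n, hrepn n'] at h2
    exact Subtype.ext h2
  have hprod : ∀ b : V → ℕ → I, ∏ v ∈ S, ((thin G Φ p ((a, c), b) v : ℤ) : ℝ) =
      ∏ n : N, (fun X : V → I => ∏ v ∈ fiberOf P cl S n, ((Φ X v : ℤ) : ℝ))
        (fun w => b w (nm G a c p w (rep n))) := by
    intro b
    rw [← Finset.prod_fiberwise_of_maps_to (g := nameOf P cl) (t := N)
      (fun v hv => Finset.mem_image_of_mem _ hv)]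
    rw [← Finset.prod_coe_sort N]
    refine Finset.prod_congr rfl (fun n _ => ?_)
    refine Finset.prod_congr rfl (fun v hv => ?_)
    change ((Φ (field G a b c p v) v : ℤ) : ℝ) = ((Φ (field G a b c p (rep n)) v : ℤ) : ℝ)
    rw [hfield n v hv b]
  have hmom : ∀ T : Finset V, ∫ X, ∏ v ∈ T, ((Φ X v : ℤ) : ℝ) ∂(PU V) = Mom P θ T := by
    intro T
    rw [← isingFree_moment G o hθ T, ← hΦlaw,
      integral_map hΦm.aemeasurable (measurable_spinProd T).aestronglyMeasurable]
  simp_rw [hprod]
  rw [integral_prod_fields (volume : Measure I) (fun (n : N) w => nm G a c p w (rep n)) hslot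
    (fun n X => ∏ v ∈ fiberOf P cl S n, ((Φ X v : ℤ) : ℝ))
    (fun n => (measurable_spinProd _).comp hΦm)]
  simp_rw [hmom]
  rw [Finset.prod_coe_sort N (fun n => Mom P θ (fiberOf P cl S n)),
    class_prod P cl (laminar_pathEdges hG o) θ S]
  have hiff : (Even S.card ∧ ∀ e ∈ oddE P S, ¬ cl e) ↔
      (Even S.card ∧ ∀ e ∈ oddE P S, opn G a c p e) := by
    constructor
    · rintro ⟨h1, h2⟩
      exact ⟨h1, fun e he => not_not.mp (h2 e he)⟩
    · rintro ⟨h1, h2⟩
      exact ⟨h1, fun e he hc => hc (h2 e he)⟩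
  by_cases hc : Even S.card ∧ ∀ e ∈ oddE P S, opn G a c p e
  · rw [if_pos hc, if_pos (hiff.mpr hc)]
  · rw [if_neg hc, if_neg (fun h => hc (hiff.mp h))]

/-- Integrating out the percolation labels. -/
lemma inner_c (hG : G.IsTree) (hfin : ∀ w k, {x | (pathEdges G w x).card = k}.Finite) (o : V)
    (θ : ℝ) (p : I) {a : V → I} (ha : Function.Injective a) (S : Finset V) :
    ∫ c, (if Even S.card ∧ ∀ e ∈ oddE (pathEdges G o) S, opn G a c p e
        then θ ^ (oddE (pathEdges G o) S).card else 0) ∂(PB V) =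
      Mom (pathEdges G o) ((p : ℝ) * θ) S := by
  set P := pathEdges G o with hP
  set F := oddE P S with hF
  by_cases hS : Even S.card
  swap
  · unfold Mom
    rw [if_neg hS]
    simp [hS]
  have hor : ∀ e ∈ F, ∃ q : V × V, e = s(q.1, q.2) ∧ a q.1 < a q.2 := by
    intro e he
    have he' : e ∈ S.biUnion P := (Finset.mem_filter.mp he).1
    obtain ⟨v, -, hev⟩ := Finset.mem_biUnion.mp he'
    have hedge := mem_edgeSet_of_mem_pathEdges hG hev
    revert hedge
    refine Sym2.inductionOn e (fun x y hxy => ?_)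
    rw [SimpleGraph.mem_edgeSet] at hxy
    have hne : a x ≠ a y := fun h => hxy.ne (ha h)
    rcases lt_or_gt_of_ne hne with hlt | hlt
    · exact ⟨(x, y), rfl, hlt⟩
    · exact ⟨(y, x), Sym2.eq_swap, hlt⟩
  set orient : Sym2 V → V × V := fun e =>
    if h : ∃ q : V × V, e = s(q.1, q.2) ∧ a q.1 < a q.2 then Classical.choose h else (o, o)
    with horient
  have hspec : ∀ e ∈ F, e = s((orient e).1, (orient e).2) ∧ a (orient e).1 < a (orient e).2 := by
    intro e he
    have h := hor e he
    simp only [horient, dif_pos h]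
    exact Classical.choose_spec h
  set ι : Sym2 V → V × ℕ := fun e => ((orient e).1, rk G a (orient e).1 (orient e).2) with hι
  have hopn : ∀ (c : V → ℕ → I), ∀ e ∈ F, (opn G a c p e ↔ c (ι e).1 (ι e).2 < p) := by
    intro c e he
    obtain ⟨h1, h2⟩ := hspec e he
    conv_lhs => rw [h1]
    rw [opn_mk]
    constructor
    · rintro (⟨-, h⟩ | ⟨h, -⟩)
      · exact h
      · exact absurd h (lt_asymm h2)
    · intro h
      exact Or.inl ⟨h2, h⟩
  have hinj : Set.InjOn ι F := by
    intro e he e' he' h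
    obtain ⟨h1, h2⟩ := hspec e he
    obtain ⟨h1', h2'⟩ := hspec e' he'
    simp only [hι, Prod.mk.injEq] at h
    obtain ⟨hx, hr⟩ := h
    rw [← hx] at hr
    have hy := rk_injective G hfin ha _ hr
    rw [h1, h1', hx, hy]
  have hset : {c : V → ℕ → I | ∀ e ∈ F, opn G a c p e} =
      {c : V → ℕ → I | ∀ e ∈ F, c (ι e).1 (ι e).2 < p} := by
    ext c
    simp only [Set.mem_ofPred_eq]
    exact forall₂_congr (fun e he => hopn c e he)
  have hmeas : MeasurableSet {c : V → ℕ → I | ∀ e ∈ F, c (ι e).1 (ι e).2 < p} := by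
    have : {c : V → ℕ → I | ∀ e ∈ F, c (ι e).1 (ι e).2 < p} =
        ⋂ e ∈ F, (fun c : V → ℕ → I => c (ι e).1 (ι e).2) ⁻¹' Set.Iio p := by
      ext c
      simp
    rw [this]
    exact MeasurableSet.biInter F.countable_toSet (fun e _ =>
      ((measurable_pi_apply (ι e).2).comp (measurable_pi_apply (ι e).1)) measurableSet_Iio)
  have hfun : (fun c : V → ℕ → I => if Even S.card ∧ ∀ e ∈ F, opn G a c p e
      then θ ^ F.card else 0) =
      Set.indicator {c : V → ℕ → I | ∀ e ∈ F, c (ι e).1 (ι e).2 < p} (fun _ => θ ^ F.card) := by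
    funext c
    rw [← hset]
    by_cases hc : ∀ e ∈ F, opn G a c p e
    · rw [if_pos ⟨hS, hc⟩, Set.indicator_of_mem (show c ∈ {c | ∀ e ∈ F, opn G a c p e} from hc)]
    · rw [if_neg (fun h => hc h.2),
        Set.indicator_of_notMem (show c ∉ {c | ∀ e ∈ F, opn G a c p e} from hc)]
  rw [hfun, integral_indicator_const _ hmeas, measureReal_def, prob_all_lt F ι hinj p]
  unfold Mom
  rw [if_pos hS, ENNReal.toReal_pow, ENNReal.toReal_ofReal p.2.1, smul_eq_mul, mul_pow]

/-- The moments of the thinned field. -/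
lemma moment_thin [Countable V] (hG : G.IsTree)
    (hfin : ∀ w k, {x | (pathEdges G w x).card = k}.Finite) (o : V)
    {θ : ℝ} (hθ : |θ| ≤ 1) {Φ : (V → I) → (V → ℤ)} (hΦm : Measurable Φ)
    (hΦlaw : (PU V).map Φ = isingFree G o θ) (hΦs : ∀ X v, Φ X v = 1 ∨ Φ X v = -1) (p : I)
    (S : Finset V) :
    ∫ q, ∏ v ∈ S, ((thin G Φ p q v : ℤ) : ℝ) ∂(((PU V).prod (PB V)).prod (PB V)) =
      Mom (pathEdges G o) ((p : ℝ) * θ) S := by
  have hmeasf : Measurable (fun q : ((V → I) × (V → ℕ → I)) × (V → ℕ → I) =>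
      ∏ v ∈ S, ((thin G Φ p q v : ℤ) : ℝ)) :=
    (measurable_spinProd S).comp (measurable_thin G hfin hΦm p)
  have hbound : ∀ q : ((V → I) × (V → ℕ → I)) × (V → ℕ → I),
      ‖∏ v ∈ S, ((thin G Φ p q v : ℤ) : ℝ)‖ ≤ 1 := by
    intro q
    have := prod_sign S (fun v => thin G Φ p q v) (fun v _ => hΦs _ v)
    rw [← Int.cast_prod]
    rcases this with h1 | h1 <;> rw [h1] <;> simp
  have hint : Integrable (fun q : ((V → I) × (V → ℕ → I)) × (V → ℕ → I) =>
      ∏ v ∈ S, ((thin G Φ p q v : ℤ) : ℝ)) (((PU V).prod (PB V)).prod (PB V)) :=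
    Integrable.of_bound hmeasf.aestronglyMeasurable 1 (ae_of_all _ hbound)
  rw [integral_prod _ hint]
  have hainj : ∀ᵐ ac ∂((PU V).prod (PB V)), Function.Injective ac.1 :=
    Measure.quasiMeasurePreserving_fst.ae ae_injective
  have h1 : (fun ac : (V → I) × (V → ℕ → I) =>
      ∫ b, ∏ v ∈ S, ((thin G Φ p (ac, b) v : ℤ) : ℝ) ∂(PB V)) =ᵐ[(PU V).prod (PB V)]
      (fun ac => if Even S.card ∧ ∀ e ∈ oddE (pathEdges G o) S, opn G ac.1 ac.2 p e
        then θ ^ (oddE (pathEdges G o) S).card else 0) := by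
    filter_upwards [hainj] with ac hac
    obtain ⟨a, c⟩ := ac
    exact inner_b G hG hfin o hθ hΦm hΦlaw p hac c S
  rw [integral_congr_ae h1]
  have hgm : Measurable (fun ac : (V → I) × (V → ℕ → I) =>
      if Even S.card ∧ ∀ e ∈ oddE (pathEdges G o) S, opn G ac.1 ac.2 p e
        then θ ^ (oddE (pathEdges G o) S).card else 0) := by
    refine Measurable.ite ?_ measurable_const measurable_const
    have : {ac : (V → I) × (V → ℕ → I) |
        Even S.card ∧ ∀ e ∈ oddE (pathEdges G o) S, opn G ac.1 ac.2 p e} =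
        {_ac : (V → I) × (V → ℕ → I) | Even S.card} ∩
          ⋂ e ∈ oddE (pathEdges G o) S, {ac : (V → I) × (V → ℕ → I) | opn G ac.1 ac.2 p e} := by
      ext ac
      simp
    rw [this]
    exact (MeasurableSet.const _).inter (MeasurableSet.biInter (Finset.countable_toSet _)
      (fun e _ => measurableSet_opn G hfin p e))
  have hgint : Integrable (fun ac : (V → I) × (V → ℕ → I) =>
      if Even S.card ∧ ∀ e ∈ oddE (pathEdges G o) S, opn G ac.1 ac.2 p e
        then θ ^ (oddE (pathEdges G o) S).card else 0) ((PU V).prod (PB V)) := by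
    apply Integrable.of_bound hgm.aestronglyMeasurable 1
    refine ae_of_all _ (fun ac => ?_)
    split_ifs
    · rw [norm_pow]
      exact pow_le_one₀ (norm_nonneg _) hθ
    · simp
  rw [integral_prod _ hgint]
  have h2 : (fun a : V → I => ∫ c, (if Even S.card ∧ ∀ e ∈ oddE (pathEdges G o) S,
      opn G (a, c).1 (a, c).2 p e then θ ^ (oddE (pathEdges G o) S).card else 0) ∂(PB V))
      =ᵐ[PU V] (fun _ => Mom (pathEdges G o) ((p : ℝ) * θ) S) := by
    filter_upwards [ae_injective] with a ha
    exact inner_c G hG hfin o θ p ha S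
  rw [integral_congr_ae h2, integral_const]
  simp

/-- Thinning: if the free Ising measure with parameter `θ` is a factor of IID on a locally
finite tree, so is the one with parameter `p * θ` for every `p ∈ [0, 1]`. -/
theorem isFIID_thin [Countable V] (hG : G.IsTree) (hlf : ∀ v, (G.neighborSet v).Finite) (o : V)
    {θ : ℝ} (hθ : |θ| ≤ 1) (p : I) (h : IsFIID G (isingFree G o θ)) :
    IsFIID G (isingFree G o ((p : ℝ) * θ)) := by
  have hfin : ∀ w k, {x | (pathEdges G w x).card = k}.Finite :=
    fun w k => finite_sphere hG hlf w k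
  obtain ⟨Φ, hΦm, hΦlaw, hΦeq, hΦs⟩ := exists_sign_factor G o hθ h
  obtain ⟨s, hs, hslaw⟩ := exists_split
  have hsplit := map_split (V := V) hs hslaw
  set T : (V → I) → ((V → I) × (V → ℕ → I)) × (V → ℕ → I) := fun U =>
    ((fun v => (s (U v)).1.1, fun v => (s (U v)).1.2), fun v => (s (U v)).2) with hT
  have hTm : Measurable T := by
    rw [hT]
    fun_prop
  have hthin : Measurable (thin G Φ p) := measurable_thin G hfin hΦm p
  have hΨm : Measurable (fun U => thin G Φ p (T U)) := hthin.comp hTm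
  have hpθ : |(p : ℝ) * θ| ≤ 1 := by
    rw [abs_mul]
    exact mul_le_one₀ (abs_le.mpr ⟨by linarith [p.2.1], p.2.2⟩) (abs_nonneg _) hθ
  refine ⟨fun U => thin G Φ p (T U), hΨm, ?_, ?_⟩
  · have hprob1 : IsProbabilityMeasure ((PU V).map (fun U => thin G Φ p (T U))) :=
      isProbabilityMeasure_map hΨm.aemeasurable
    have hfact : Fact (|(p : ℝ) * θ| ≤ 1) := ⟨hpθ⟩
    apply measure_eq_of_moments
    · rw [ae_map_iff hΨm.aemeasurable measurableSet_signs]
      exact ae_of_all _ (fun U v => hΦs _ v)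
    · exact isingFree_ae_sign G o hpθ
    · intro S
      have hf2 : Measurable (fun q : ((V → I) × (V → ℕ → I)) × (V → ℕ → I) =>
          ∏ v ∈ S, ((thin G Φ p q v : ℤ) : ℝ)) := (measurable_spinProd S).comp hthin
      rw [integral_map hΨm.aemeasurable (measurable_spinProd S).aestronglyMeasurable,
        isingFree_moment G o hpθ S, ← moment_thin G hG hfin o hθ hΦm hΦlaw hΦs p S, ← hsplit,
        integral_map hTm.aemeasurable hf2.aestronglyMeasurable]
  · intro g
    have hfm : ∀ v' : V, Measurable (fun U : V → I => field G (T U).1.1 (T U).2 (T U).1.2 p v') :=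
      fun v' => (measurable_field G hfin p v').comp hTm
    have hlawF : ∀ v' : V,
        (PU V).map (fun U => field G (T U).1.1 (T U).2 (T U).1.2 p v') = PU V := by
      intro v'
      have hc : (fun U => field G (T U).1.1 (T U).2 (T U).1.2 p v') =
          (fun q : ((V → I) × (V → ℕ → I)) × (V → ℕ → I) => field G q.1.1 q.2 q.1.2 p v') ∘ T :=
        rfl
      rw [hc, ← Measure.map_map (measurable_field G hfin p v') hTm, hsplit]
      exact map_prod_eq_of_forall _ _ _ _ (measurable_field G hfin p v')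
        (fun ac => map_field (volume : Measure I) (fun w => nm G ac.1 ac.2 p w v'))
    have hae : ∀ᵐ U ∂(PU V), ∀ v' : V,
        Φ (shift g (field G (T U).1.1 (T U).2 (T U).1.2 p v')) =
          shift g (Φ (field G (T U).1.1 (T U).2 (T U).1.2 p v')) := by
      rw [ae_all_iff]
      intro v'
      have := hΦeq g
      rw [← hlawF v'] at this
      exact ae_of_ae_map (hfm v').aemeasurable this
    filter_upwards [hae] with U hU
    funext v
    have hT1 : (T (shift g U)).1.1 = shift g (T U).1.1 := rfl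
    have hT2 : (T (shift g U)).2 = shift g (T U).2 := rfl
    have hT3 : (T (shift g U)).1.2 = shift g (T U).1.2 := rfl
    change Φ (field G (T (shift g U)).1.1 (T (shift g U)).2 (T (shift g U)).1.2 p v) v =
      Φ (field G (T U).1.1 (T U).2 (T U).1.2 p (g.symm v)) (g.symm v)
    rw [hT1, hT2, hT3, field_shift G hG g, hU (g.symm v)]
    rfl

/-- A locally finite tree has countably many vertices. -/
lemma countable_of_locallyFinite_tree (hG : G.IsTree) (hlf : ∀ v, (G.neighborSet v).Finite)
    (o : V) : Countable V := by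
  rw [← Set.countable_univ_iff]
  have : (Set.univ : Set V) = ⋃ k, {x | (pathEdges G o x).card = k} := by
    ext x
    simp
  rw [this]
  exact Set.countable_iUnion (fun k => (finite_sphere hG hlf o k).countable)

/-- Monotonicity: on a locally finite tree, the set of `θ ∈ [0, 1]` for which the free Ising
measure is a factor of IID is a down-set. -/
theorem isFIID_isingFree_mono (hG : G.IsTree) (hlf : ∀ v, (G.neighborSet v).Finite)
    (o : V) {θ θ' : ℝ} (h0 : 0 ≤ θ') (hle : θ' ≤ θ) (h1 : θ ≤ 1)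
    (h : IsFIID G (isingFree G o θ)) : IsFIID G (isingFree G o θ') := by
  have hcount : Countable V := countable_of_locallyFinite_tree G hG hlf o
  by_cases hθ0 : θ = 0
  · have : θ' = θ := by
      rw [hθ0] at hle ⊢
      exact le_antisymm hle h0
    rw [this]
    exact h
  · have hθpos : 0 < θ := lt_of_le_of_ne (h0.trans hle) (Ne.symm hθ0)
    have hp : θ' / θ ∈ Set.Icc (0 : ℝ) 1 :=
      ⟨div_nonneg h0 hθpos.le, (div_le_one hθpos).mpr hle⟩
    have hmain := isFIID_thin G hG hlf o (abs_le.mpr ⟨by linarith, h1⟩) ⟨θ' / θ, hp⟩ h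
    have hmul : ((⟨θ' / θ, hp⟩ : I) : ℝ) * θ = θ' := by
      change θ' / θ * θ = θ'
      field_simp
    rw [hmul] at hmain
    exact hmain

end Vale.Agent.H43.P161
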