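import Vale.Agent.H43.P161.TreePath
import Vale.Agent.H43.P161.Labels

namespace Vale.Agent.H43.P161

open MeasureTheory Measure Set unitInterval SimpleGraph

open scoped Classical

variable {V : Type*} (G : SimpleGraph V)

/-- The rank of `x` as seen from `w`: its distance from `w` together with the number of
vertices at the same distance carrying a smaller label. -/
noncomputable def rk (a : V → I) (w x : V) : ℕ :=
  Nat.pair (pathEdges G w x).card
    (Set.ncard {x' | (pathEdges G w x').card = (pathEdges G w x).card ∧ a x' < a x})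

lemma rk_injective (hfin : ∀ w k, {x | (pathEdges G w x).card = k}.Finite) {a : V → I}
    (ha : Function.Injective a) (w : V) : Function.Injective (rk G a w) := by
  have key : ∀ x y : V, (pathEdges G w x).card = (pathEdges G w y).card → a x < a y →
      Set.ncard {x' | (pathEdges G w x').card = (pathEdges G w x).card ∧ a x' < a x} <
      Set.ncard {x' | (pathEdges G w x').card = (pathEdges G w y).card ∧ a x' < a y} := by
    intro x y h1 hlt
    apply Set.ncard_lt_ncard
    · rw [Set.ssubset_iff_of_subset]
      · exact ⟨x, ⟨h1, hlt⟩, fun h => lt_irrefl _ h.2⟩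
      · rintro z ⟨hz1, hz2⟩
        exact ⟨hz1.trans h1, hz2.trans hlt⟩
    · exact (hfin w _).subset (fun z hz => hz.1)
  intro x y h
  unfold rk at h
  rw [Nat.pair_eq_pair] at h
  obtain ⟨h1, h2⟩ := h
  by_contra hne
  have hane : a x ≠ a y := fun h => hne (ha h)
  rcases lt_or_gt_of_ne hane with hlt | hlt
  · have := key x y h1 hlt
    omega
  · have := key y x h1.symm hlt
    omega

lemma measurable_rk (hfin : ∀ w k, {x | (pathEdges G w x).card = k}.Finite) (w x : V) :
    Measurable (fun a : V → I => rk G a w x) := by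
  have h : ∀ a : V → I, rk G a w x = Nat.pair (pathEdges G w x).card
      (∑ x' ∈ (hfin w (pathEdges G w x).card).toFinset, if a x' < a x then 1 else 0) := by
    intro a
    unfold rk
    have hset : {x' | (pathEdges G w x').card = (pathEdges G w x).card ∧ a x' < a x} =
        ↑((hfin w (pathEdges G w x).card).toFinset.filter (fun x' => a x' < a x)) := by
      ext z
      simp [Set.Finite.mem_toFinset]
    rw [hset, Set.ncard_coe_finset, Finset.card_filter]
  have h' : (fun a : V → I => rk G a w x) = fun a => Nat.pair (pathEdges G w x).card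
      (∑ x' ∈ (hfin w (pathEdges G w x).card).toFinset, if a x' < a x then 1 else 0) :=
    funext h
  rw [h']
  exact (measurable_from_nat (f := fun n => Nat.pair (pathEdges G w x).card n)).comp
    (Finset.measurable_sum _ (fun x' _ => Measurable.ite
      (measurableSet_lt (measurable_pi_apply x') (measurable_pi_apply x))
      measurable_const measurable_const))

lemma rk_shift (hG : G.IsTree) (g : G ≃g G) (a : V → I) (w x : V) :
    rk G (shift g a) (g w) (g x) = rk G a w x := by
  unfold rk
  rw [card_pathEdges_map hG]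
  congr 1
  have : {x' | (pathEdges G (g w) x').card = (pathEdges G w x).card ∧
      shift g a x' < shift g a (g x)} =
      g '' {x' | (pathEdges G w x').card = (pathEdges G w x).card ∧ a x' < a x} := by
    ext z
    simp only [Set.mem_ofPred_eq, Set.mem_image, shift]
    constructor
    · rintro ⟨h1, h2⟩
      refine ⟨g.symm z, ⟨?_, ?_⟩, g.apply_symm_apply z⟩
      · rw [← h1, ← card_pathEdges_map hG g w (g.symm z), g.apply_symm_apply]
      · simpa using h2
    · rintro ⟨z', ⟨h1, h2⟩, rfl⟩
      refine ⟨?_, ?_⟩
      · rw [card_pathEdges_map hG]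
        exact h1
      · simpa using h2
  rw [this, Set.ncard_image_of_injective _ g.injective]

/-- A code of an unordered pair of vertices, built from a numbering of the vertices. -/
def ecode (ρ : V → ℕ) : Sym2 V → ℕ :=
  Sym2.lift ⟨fun x y => Nat.pair (min (ρ x) (ρ y)) (max (ρ x) (ρ y)),
    fun x y => by
      change Nat.pair (min (ρ x) (ρ y)) (max (ρ x) (ρ y)) =
        Nat.pair (min (ρ y) (ρ x)) (max (ρ y) (ρ x))
      rw [min_comm, max_comm]⟩

lemma ecode_mk (ρ : V → ℕ) (x y : V) :
    ecode ρ s(x, y) = Nat.pair (min (ρ x) (ρ y)) (max (ρ x) (ρ y)) := rfl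

lemma ecode_injective {ρ : V → ℕ} (hρ : Function.Injective ρ) :
    Function.Injective (ecode ρ) := by
  intro e e' h
  revert h
  refine Sym2.inductionOn₂ e e' (fun x y x' y' h => ?_)
  rw [ecode_mk, ecode_mk, Nat.pair_eq_pair] at h
  obtain ⟨h1, h2⟩ := h
  rw [Sym2.eq_iff]
  rcases le_total (ρ x) (ρ y) with hxy | hxy <;> rcases le_total (ρ x') (ρ y') with hxy' | hxy'
  · rw [min_eq_left hxy, min_eq_left hxy'] at h1
    rw [max_eq_right hxy, max_eq_right hxy'] at h2
    exact Or.inl ⟨hρ h1, hρ h2⟩
  · rw [min_eq_left hxy, min_eq_right hxy'] at h1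
    rw [max_eq_right hxy, max_eq_left hxy'] at h2
    exact Or.inr ⟨hρ h1, hρ h2⟩
  · rw [min_eq_right hxy, min_eq_left hxy'] at h1
    rw [max_eq_left hxy, max_eq_right hxy'] at h2
    exact Or.inr ⟨hρ h2, hρ h1⟩
  · rw [min_eq_right hxy, min_eq_right hxy'] at h1
    rw [max_eq_left hxy, max_eq_left hxy'] at h2
    exact Or.inl ⟨hρ h2, hρ h1⟩

/-- The edge `s(x, y)` is open if the label attached to it at its endpoint with the smaller
vertex label lies below `p`. -/
def opn (a : V → I) (c : V → ℕ → I) (p : I) : Sym2 V → Prop :=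
  Sym2.lift ⟨fun x y => (a x < a y ∧ c x (rk G a x y) < p) ∨ (a y < a x ∧ c y (rk G a y x) < p),
    fun _ _ => propext or_comm⟩

lemma opn_mk (a : V → I) (c : V → ℕ → I) (p : I) (x y : V) :
    opn G a c p s(x, y) ↔
      ((a x < a y ∧ c x (rk G a x y) < p) ∨ (a y < a x ∧ c y (rk G a y x) < p)) := Iff.rfl

lemma opn_shift (hG : G.IsTree) (g : G ≃g G) (a : V → I) (c : V → ℕ → I) (p : I) (e : Sym2 V) :
    opn G (shift g a) (shift g c) p (Sym2.map g e) ↔ opn G a c p e := by
  refine Sym2.inductionOn e (fun x y => ?_)
  rw [Sym2.map_mk, opn_mk, opn_mk, rk_shift G hG, rk_shift G hG]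
  simp [shift]

lemma measurableSet_opn (hfin : ∀ w k, {x | (pathEdges G w x).card = k}.Finite) (p : I)
    (e : Sym2 V) : MeasurableSet {ac : (V → I) × (V → ℕ → I) | opn G ac.1 ac.2 p e} := by
  refine Sym2.inductionOn e (fun x y => ?_)
  have key : ∀ x y : V, MeasurableSet {ac : (V → I) × (V → ℕ → I) |
      ac.1 x < ac.1 y ∧ ac.2 x (rk G ac.1 x y) < p} := by
    intro x y
    have h1 : MeasurableSet {ac : (V → I) × (V → ℕ → I) | ac.1 x < ac.1 y} :=
      measurableSet_lt ((measurable_pi_apply x).comp measurable_fst)
        ((measurable_pi_apply y).comp measurable_fst)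
    have h2 : Measurable (fun ac : (V → I) × (V → ℕ → I) => ac.2 x (rk G ac.1 x y)) := by
      have hm : Measurable (fun r : ℕ × ((V → I) × (V → ℕ → I)) => r.2.2 x r.1) :=
        measurable_from_prod_countable_right (fun n =>
          (measurable_pi_apply n).comp ((measurable_pi_apply x).comp measurable_snd))
      exact hm.comp (((measurable_rk G hfin x y).comp measurable_fst).prodMk measurable_id)
    have h3 : MeasurableSet {ac : (V → I) × (V → ℕ → I) | ac.2 x (rk G ac.1 x y) < p} :=
      h2 measurableSet_Iio
    exact h1.inter h3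
  exact (key x y).union (key y x)

/-- The closed edges. -/
def closedE (a : V → I) (c : V → ℕ → I) (p : I) : Sym2 V → Prop := fun e => ¬ opn G a c p e

/-- The name, as seen from `w`, of the cluster of `v`: a code of the set of closed edges on the
path from `w` to `v`. -/
noncomputable def nm (a : V → I) (c : V → ℕ → I) (p : I) (w v : V) : ℕ :=
  ∑ e ∈ pathEdges G w v, if opn G a c p e then 0 else 2 ^ ecode (rk G a w) e

lemma nm_eq_sum_filter (a : V → I) (c : V → ℕ → I) (p : I) (w v : V) :
    nm G a c p w v =
      ∑ e ∈ (pathEdges G w v).filter (closedE G a c p), 2 ^ ecode (rk G a w) e := by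
  unfold nm
  rw [Finset.sum_filter]
  refine Finset.sum_congr rfl (fun e _ => ?_)
  by_cases h : opn G a c p e
  · rw [if_pos h, if_neg (fun hc : closedE G a c p e => hc h)]
  · rw [if_neg h, if_pos (show closedE G a c p e from h)]

lemma filter_closed_eq_iff (hG : G.IsTree) (cl : Sym2 V → Prop) (w u v : V) :
    (pathEdges G w u).filter cl = (pathEdges G w v).filter cl ↔
      ∀ e ∈ pathEdges G u v, ¬ cl e := by
  constructor
  · intro h e he hcl
    rw [mem_pathEdges_iff hG w u v e] at he
    apply he
    have := Finset.ext_iff.mp h e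
    simp only [Finset.mem_filter, hcl, and_true] at this
    exact this
  · intro h
    ext e
    simp only [Finset.mem_filter]
    by_cases hcl : cl e
    · have h1 := h e
      rw [mem_pathEdges_iff hG w u v e] at h1
      have h2 : (e ∈ pathEdges G w u ↔ e ∈ pathEdges G w v) := by
        by_contra hc
        exact h1 hc hcl
      rw [h2]
    · simp [hcl]

lemma nm_eq_of_open (hG : G.IsTree) {a : V → I} {c : V → ℕ → I} {p : I} {u v : V}
    (h : ∀ e ∈ pathEdges G u v, opn G a c p e) (w : V) :
    nm G a c p w u = nm G a c p w v := by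
  rw [nm_eq_sum_filter, nm_eq_sum_filter,
    (filter_closed_eq_iff G hG (closedE G a c p) w u v).mpr
      (fun e he => fun hc : closedE G a c p e => hc (h e he))]

lemma open_of_nm_eq (hG : G.IsTree) (hfin : ∀ w k, {x | (pathEdges G w x).card = k}.Finite)
    {a : V → I} (ha : Function.Injective a) {c : V → ℕ → I} {p : I} {w u v : V}
    (h : nm G a c p w u = nm G a c p w v) : ∀ e ∈ pathEdges G u v, opn G a c p e := by
  have hinj := ecode_injective (rk_injective G hfin ha w)
  have e1 : ∀ T : Finset (Sym2 V), ∑ e ∈ T, 2 ^ ecode (rk G a w) e =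
      ∑ k ∈ T.image (ecode (rk G a w)), 2 ^ k := by
    intro T
    rw [Finset.sum_image (fun x _ y _ hxy => hinj hxy)]
  rw [nm_eq_sum_filter, nm_eq_sum_filter, e1, e1] at h
  have h2 := Finset.geomSum_injective (le_refl 2) h
  have h3 := Finset.image_injective hinj h2
  have h4 := (filter_closed_eq_iff G hG (closedE G a c p) w u v).mp h3
  intro e he
  exact not_not.mp (h4 e he)

lemma nm_shift (hG : G.IsTree) (g : G ≃g G) (a : V → I) (c : V → ℕ → I) (p : I) (w v : V) :
    nm G (shift g a) (shift g c) p (g w) (g v) = nm G a c p w v := by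
  unfold nm
  rw [pathEdges_map hG g w v,
    Finset.sum_image (fun x _ y _ h => Sym2.map.injective g.injective h)]
  refine Finset.sum_congr rfl (fun e _ => ?_)
  have h1 : ecode (rk G (shift g a) (g w)) (Sym2.map g e) = ecode (rk G a w) e := by
    refine Sym2.inductionOn e (fun x y => ?_)
    rw [Sym2.map_mk, ecode_mk, ecode_mk, rk_shift G hG, rk_shift G hG]
  rw [h1]
  by_cases ho : opn G a c p e
  · rw [if_pos ho, if_pos ((opn_shift G hG g a c p e).mpr ho)]
  · rw [if_neg ho, if_neg (fun h => ho ((opn_shift G hG g a c p e).mp h))]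

lemma measurable_nm (hfin : ∀ w k, {x | (pathEdges G w x).card = k}.Finite) (p : I) (w v : V) :
    Measurable (fun ac : (V → I) × (V → ℕ → I) => nm G ac.1 ac.2 p w v) := by
  unfold nm
  refine Finset.measurable_sum _ (fun e _ => ?_)
  refine Measurable.ite (measurableSet_opn G hfin p e) measurable_const ?_
  have h1 : Measurable (fun a : V → I => ecode (rk G a w) e) := by
    refine Sym2.inductionOn e (fun x y => ?_)
    simp only [ecode_mk]
    exact (Measurable.of_discrete (f := fun q : ℕ × ℕ => Nat.pair (min q.1 q.2) (max q.1 q.2))).comp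
      ((measurable_rk G hfin w x).prodMk (measurable_rk G hfin w y))
  exact (measurable_from_nat (f := fun k => 2 ^ k)).comp (h1.comp measurable_fst)

/-- The label field attached to the cluster of `v`: at `w`, the label of `w` in the slot given by
the name of the cluster of `v` as seen from `w`. -/
noncomputable def field (a : V → I) (b : V → ℕ → I) (c : V → ℕ → I) (p : I) (v : V) : V → I :=
  fun w => b w (nm G a c p w v)

lemma field_shift (hG : G.IsTree) (g : G ≃g G) (a : V → I) (b c : V → ℕ → I) (p : I) (v : V) :
    field G (shift g a) (shift g b) (shift g c) p v = shift g (field G a b c p (g.symm v)) := by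
  funext w
  have h := nm_shift G hG g a c p (g.symm w) (g.symm v)
  rw [g.apply_symm_apply, g.apply_symm_apply] at h
  change b (g.symm w) (nm G (shift g a) (shift g c) p w v) =
    b (g.symm w) (nm G a c p (g.symm w) (g.symm v))
  rw [h]

lemma measurable_field (hfin : ∀ w k, {x | (pathEdges G w x).card = k}.Finite) (p : I) (v : V) :
    Measurable (fun q : ((V → I) × (V → ℕ → I)) × (V → ℕ → I) =>
      field G q.1.1 q.2 q.1.2 p v) := by
  refine measurable_pi_lambda _ (fun w => ?_)
  have hm : Measurable (fun r : ℕ × (((V → I) × (V → ℕ → I)) × (V → ℕ → I)) => r.2.2 w r.1) :=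
    measurable_from_prod_countable_right (fun n =>
      (measurable_pi_apply n).comp ((measurable_pi_apply w).comp measurable_snd))
  exact hm.comp (((measurable_nm G hfin p w v).comp measurable_fst).prodMk measurable_id)

end Vale.Agent.H43.P161
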