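import Vale.Agent.H43.P161.Defs

namespace Vale.Agent.H43.P161

open MeasureTheory Measure

lemma isProbabilityMeasure_signMeasure {m : ℝ} (hm : |m| ≤ 1) :
    IsProbabilityMeasure (signMeasure m) := by
  have h1 : 0 ≤ (1 + m) / 2 := by
    have := abs_le.mp hm
    linarith [this.1]
  have h2 : 0 ≤ (1 - m) / 2 := by
    have := abs_le.mp hm
    linarith [this.2]
  constructor
  unfold signMeasure
  simp only [Measure.coe_add, Measure.coe_smul, Pi.add_apply, Pi.smul_apply, measure_univ,
    smul_eq_mul, mul_one]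
  rw [← ENNReal.ofReal_add h1 h2]
  have : (1 + m) / 2 + (1 - m) / 2 = 1 := by ring
  rw [this, ENNReal.ofReal_one]

/-- The product of two independent signs with means `a` and `b` is a sign with mean `a * b`. -/
lemma signMeasure_mul {a b : ℝ} (ha : |a| ≤ 1) (hb : |b| ≤ 1) :
    ((signMeasure a).prod (signMeasure b)).map (fun p : ℤ × ℤ => p.1 * p.2) =
      signMeasure (a * b) := by
  have ha1 : 0 ≤ (1 + a) / 2 := by linarith [(abs_le.mp ha).1]
  have ha2 : 0 ≤ (1 - a) / 2 := by linarith [(abs_le.mp ha).2]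
  have hb1 : 0 ≤ (1 + b) / 2 := by linarith [(abs_le.mp hb).1]
  have hb2 : 0 ≤ (1 - b) / 2 := by linarith [(abs_le.mp hb).2]
  have hmeas : Measurable (fun p : ℤ × ℤ => p.1 * p.2) := by fun_prop
  unfold signMeasure
  rw [Measure.prod_add, Measure.add_prod, Measure.add_prod]
  simp only [Measure.prod_smul_left, Measure.prod_smul_right, Measure.dirac_prod_dirac]
  rw [Measure.map_add _ _ hmeas, Measure.map_add _ _ hmeas, Measure.map_add _ _ hmeas]
  simp only [Measure.map_smul, Measure.map_dirac' hmeas, mul_one, mul_neg,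
    neg_neg, smul_smul]
  rw [← ENNReal.ofReal_mul hb1, ← ENNReal.ofReal_mul hb1, ← ENNReal.ofReal_mul hb2,
    ← ENNReal.ofReal_mul hb2]
  have e1 : ENNReal.ofReal ((1 + a * b) / 2) =
      ENNReal.ofReal ((1 + b) / 2 * ((1 + a) / 2)) + ENNReal.ofReal ((1 - b) / 2 * ((1 - a) / 2)) := by
    rw [← ENNReal.ofReal_add (by positivity) (by positivity)]
    congr 1
    ring
  have e2 : ENNReal.ofReal ((1 - a * b) / 2) =
      ENNReal.ofReal ((1 + b) / 2 * ((1 - a) / 2)) + ENNReal.ofReal ((1 - b) / 2 * ((1 + a) / 2)) := by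
    rw [← ENNReal.ofReal_add (by positivity) (by positivity)]
    congr 1
    ring
  rw [e1, e2, add_smul, add_smul]
  abel

end Vale.Agent.H43.P161
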