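import Mathlib

namespace Vale.Agent.H43.P161

open MeasureTheory Measure Set

variable {ι : Type*} {X Y : ι → Type*} [∀ i, MeasurableSpace (X i)] [∀ i, MeasurableSpace (Y i)]

/-- Split a family of pairs into the pair of families. -/
def unzip (w : ∀ i, X i × Y i) : (∀ i, X i) × (∀ i, Y i) :=
  (fun i => (w i).1, fun i => (w i).2)

lemma measurable_unzip : Measurable (unzip : (∀ i, X i × Y i) → (∀ i, X i) × (∀ i, Y i)) := by
  unfold unzip
  fun_prop

/-- The whole space is a square cylinder, so finite measures have finite spanning sets there. -/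
def finiteSpanningSquareCylinders {κ : Type*} {Z : κ → Type*} [∀ i, MeasurableSpace (Z i)]
    (ρ : Measure (∀ i, Z i)) [IsFiniteMeasure ρ] :
    ρ.FiniteSpanningSetsIn (squareCylinders fun i => {s : Set (Z i) | MeasurableSet s}) :=
  ⟨fun _ => univ, fun _ => ⟨∅, fun _ => univ, by simp, by simp⟩,
    fun _ => measure_lt_top _ _, iUnion_const _⟩

/-- The infinite product of product measures, unzipped, is the product of the infinite products. -/
theorem infinitePi_prod_map_unzip (μ : ∀ i, Measure (X i)) (ν : ∀ i, Measure (Y i))
    [∀ i, IsProbabilityMeasure (μ i)] [∀ i, IsProbabilityMeasure (ν i)] :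
    (infinitePi (fun i => (μ i).prod (ν i))).map unzip = (infinitePi μ).prod (infinitePi ν) := by
  classical
  symm
  refine Measure.prod_eq_generateFrom generateFrom_squareCylinders generateFrom_squareCylinders
    (isPiSystem_squareCylinders (fun _ => MeasurableSpace.isPiSystem_measurableSet) (by simp))
    (isPiSystem_squareCylinders (fun _ => MeasurableSpace.isPiSystem_measurableSet) (by simp))
    (finiteSpanningSquareCylinders (infinitePi μ)) (finiteSpanningSquareCylinders (infinitePi ν)) ?_
  rintro _ ⟨S1, t1, ht1, rfl⟩ _ ⟨S2, t2, ht2, rfl⟩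
  simp only [mem_univ_pi, mem_ofPred_eq] at ht1 ht2
  have hm1 : MeasurableSet ((S1 : Set ι).pi t1) :=
    MeasurableSet.pi S1.countable_toSet (fun i _ => ht1 i)
  have hm2 : MeasurableSet ((S2 : Set ι).pi t2) :=
    MeasurableSet.pi S2.countable_toSet (fun i _ => ht2 i)
  rw [Measure.map_apply measurable_unzip (hm1.prod hm2)]
  have hpre : unzip ⁻¹' (((S1 : Set ι).pi t1) ×ˢ ((S2 : Set ι).pi t2)) =
      ((S1 ∪ S2 : Finset ι) : Set ι).pi (fun i =>
        (if i ∈ S1 then t1 i else univ) ×ˢ (if i ∈ S2 then t2 i else univ)) := by
    ext w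
    simp only [unzip, mem_preimage, mem_prod, Set.mem_pi, Finset.mem_coe, Finset.mem_union]
    constructor
    · rintro ⟨h1, h2⟩ i hi
      refine ⟨?_, ?_⟩
      · split_ifs with h
        · exact h1 i h
        · exact mem_univ _
      · split_ifs with h
        · exact h2 i h
        · exact mem_univ _
    · intro h
      refine ⟨fun i hi => ?_, fun i hi => ?_⟩
      · have := (h i (Or.inl hi)).1
        simpa [hi] using this
      · have := (h i (Or.inr hi)).2
        simpa [hi] using this
  rw [hpre, infinitePi_pi, infinitePi_pi _ (fun i _ => ht1 i), infinitePi_pi _ (fun i _ => ht2 i)]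
  · simp only [Measure.prod_prod]
    rw [Finset.prod_mul_distrib]
    congr 1
    · symm
      rw [← Finset.prod_subset (Finset.subset_union_left (s₁ := S1) (s₂ := S2))]
      · apply Finset.prod_congr rfl
        intro i hi
        simp [hi]
      · intro i _ hi
        simp [hi]
    · symm
      rw [← Finset.prod_subset (Finset.subset_union_right (s₁ := S1) (s₂ := S2))]
      · apply Finset.prod_congr rfl
        intro i hi
        simp [hi]
      · intro i _ hi
        simp [hi]
  · intro i _
    refine MeasurableSet.prod ?_ ?_
    · split_ifs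
      · exact ht1 i
      · exact MeasurableSet.univ
    · split_ifs
      · exact ht2 i
      · exact MeasurableSet.univ

end Vale.Agent.H43.P161
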