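import Vale.Agent.H43.P161.Defs
import Vale.Agent.H43.P161.Sign
import Vale.Agent.H43.P161.Zip

namespace Vale.Agent.H43.P161

open MeasureTheory Measure unitInterval

variable {V : Type*}

lemma measurable_broadcast (G : SimpleGraph V) (o : V) : Measurable (broadcast G o) := by
  unfold broadcast
  refine measurable_pi_lambda _ (fun v => ?_)
  refine Measurable.mul (measurable_pi_apply _) ?_
  exact Finset.measurable_prod _ (fun e _ => measurable_pi_apply _)

lemma abs_meanAt_le {θ : ℝ} (hθ : |θ| ≤ 1) (i : Option (Sym2 V)) : |meanAt θ i| ≤ 1 := by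
  cases i with
  | none => simp [meanAt]
  | some e => simpa [meanAt] using hθ

lemma meanAt_mul (a b : ℝ) (i : Option (Sym2 V)) :
    meanAt a i * meanAt b i = meanAt (a * b) i := by
  cases i with
  | none => simp [meanAt]
  | some e => simp [meanAt]

/-- Coordinatewise product of two independent sign fields. -/
lemma signField_mul {a b : ℝ} (ha : |a| ≤ 1) (hb : |b| ≤ 1) :
    ((infinitePi (fun i : Option (Sym2 V) => signMeasure (meanAt a i))).prod
        (infinitePi (fun i : Option (Sym2 V) => signMeasure (meanAt b i)))).map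
      (fun p : (Option (Sym2 V) → ℤ) × (Option (Sym2 V) → ℤ) => fun i => p.1 i * p.2 i) =
    infinitePi (fun i : Option (Sym2 V) => signMeasure (meanAt (a * b) i)) := by
  have : ∀ i : Option (Sym2 V), IsProbabilityMeasure (signMeasure (meanAt a i)) :=
    fun i => isProbabilityMeasure_signMeasure (abs_meanAt_le ha i)
  have : ∀ i : Option (Sym2 V), IsProbabilityMeasure (signMeasure (meanAt b i)) :=
    fun i => isProbabilityMeasure_signMeasure (abs_meanAt_le hb i)
  rw [← infinitePi_prod_map_unzip, Measure.map_map (by fun_prop) measurable_unzip]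
  have hcomp : ((fun p : (Option (Sym2 V) → ℤ) × (Option (Sym2 V) → ℤ) => fun i => p.1 i * p.2 i) ∘
      unzip) = fun (w : Option (Sym2 V) → ℤ × ℤ) i => (fun q : ℤ × ℤ => q.1 * q.2) (w i) := by
    funext w i
    simp [unzip]
  rw [hcomp, infinitePi_map_pi
    (μ := fun i : Option (Sym2 V) => (signMeasure (meanAt a i)).prod (signMeasure (meanAt b i)))
    (f := fun _ (q : ℤ × ℤ) => q.1 * q.2) (fun i => by fun_prop)]
  congr 1
  funext i
  rw [signMeasure_mul (abs_meanAt_le ha i) (abs_meanAt_le hb i), meanAt_mul]

/-- The pointwise product of two independent free Ising fields is a free Ising field. -/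
lemma isingFree_mul (G : SimpleGraph V) (o : V) {a b : ℝ} (ha : |a| ≤ 1) (hb : |b| ≤ 1) :
    ((isingFree G o a).prod (isingFree G o b)).map
      (fun p : (V → ℤ) × (V → ℤ) => fun v => p.1 v * p.2 v) = isingFree G o (a * b) := by
  have : ∀ i : Option (Sym2 V), IsProbabilityMeasure (signMeasure (meanAt a i)) :=
    fun i => isProbabilityMeasure_signMeasure (abs_meanAt_le ha i)
  have : ∀ i : Option (Sym2 V), IsProbabilityMeasure (signMeasure (meanAt b i)) :=
    fun i => isProbabilityMeasure_signMeasure (abs_meanAt_le hb i)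
  have hB := measurable_broadcast G o
  unfold isingFree
  rw [Measure.map_prod_map _ _ hB hB, Measure.map_map (by fun_prop) (by fun_prop),
    ← signField_mul ha hb, Measure.map_map hB (by fun_prop)]
  congr 1
  funext p v
  simp only [Function.comp_apply, Prod.map_fst, Prod.map_snd, broadcast]
  rw [Finset.prod_mul_distrib]
  ring


/-- The coordinatewise image of i.i.d. uniform labels under a fixed measurable map `f`
with `volume.map f = volume` is again i.i.d. uniform. -/
lemma iid_map_coord {f : I → I} (hf : Measurable f) (hfm : (volume : Measure I).map f = volume) :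
    (infinitePi (fun _ : V => (volume : Measure I))).map (fun U w => f (U w)) =
      infinitePi (fun _ : V => (volume : Measure I)) := by
  rw [infinitePi_map_pi (μ := fun _ : V => (volume : Measure I)) (f := fun _ => f) (fun _ => hf)]
  simp only [hfm]

/-- Factors of IID are closed under the pointwise product of two independent copies:
if `μ₁` and `μ₂` are factors of IID then so is the law of the pointwise product of independent
samples of `μ₁` and `μ₂`. -/
theorem isFIID_mul_indep (G : SimpleGraph V) {μ₁ μ₂ : Measure (V → ℤ)}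
    (h1 : IsFIID G μ₁) (h2 : IsFIID G μ₂) :
    IsFIID G ((μ₁.prod μ₂).map (fun p : (V → ℤ) × (V → ℤ) => fun v => p.1 v * p.2 v)) := by
  obtain ⟨Φ1, hΦ1m, hΦ1law, hΦ1eq⟩ := h1
  obtain ⟨Φ2, hΦ2m, hΦ2law, hΦ2eq⟩ := h2
  obtain ⟨s, hs, hsmap⟩ :=
    Measure.exists_measurable_map_eq ((volume : Measure I).prod (volume : Measure I))
  set P : Measure (V → I) := infinitePi (fun _ : V => (volume : Measure I)) with hP
  have hs1 : Measurable (fun u : I => (s u).1) := by fun_prop
  have hs2 : Measurable (fun u : I => (s u).2) := by fun_prop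
  have hs1m : (volume : Measure I).map (fun u : I => (s u).1) = volume := by
    have : (fun u : I => (s u).1) = Prod.fst ∘ s := rfl
    rw [this, ← Measure.map_map measurable_fst hs, hsmap, Measure.map_fst_prod]
    simp
  have hs2m : (volume : Measure I).map (fun u : I => (s u).2) = volume := by
    have : (fun u : I => (s u).2) = Prod.snd ∘ s := rfl
    rw [this, ← Measure.map_map measurable_snd hs, hsmap, Measure.map_snd_prod]
    simp
  have hZ1 : P.map (fun U w => (s (U w)).1) = P := iid_map_coord hs1 hs1m
  have hZ2 : P.map (fun U w => (s (U w)).2) = P := iid_map_coord hs2 hs2m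
  have hZ1meas : Measurable (fun (U : V → I) (w : V) => (s (U w)).1) := by fun_prop
  have hZ2meas : Measurable (fun (U : V → I) (w : V) => (s (U w)).2) := by fun_prop
  refine ⟨fun U v => Φ1 (fun w => (s (U w)).1) v * Φ2 (fun w => (s (U w)).2) v, ?_, ?_, ?_⟩
  · -- measurability
    refine measurable_pi_lambda _ (fun v => ?_)
    exact ((measurable_pi_apply v).comp (hΦ1m.comp hZ1meas)).mul
      ((measurable_pi_apply v).comp (hΦ2m.comp hZ2meas))
  · -- the law
    have hZ : P.map (fun U w => s (U w)) =
        infinitePi (fun _ : V => (volume : Measure I).prod (volume : Measure I)) := by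
      rw [hP, infinitePi_map_pi (μ := fun _ : V => (volume : Measure I)) (f := fun _ => s)
        (fun _ => hs)]
      simp only [hsmap]
    have hpair : P.map (fun U => ((fun w => (s (U w)).1), (fun w => (s (U w)).2))) = P.prod P := by
      have : (fun U : V → I => ((fun w => (s (U w)).1), (fun w => (s (U w)).2))) =
          unzip ∘ (fun U w => s (U w)) := rfl
      rw [this, ← Measure.map_map measurable_unzip (by fun_prop), hZ, infinitePi_prod_map_unzip]
    have hcomp : (fun (U : V → I) v => Φ1 (fun w => (s (U w)).1) v * Φ2 (fun w => (s (U w)).2) v) =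
        (fun p : (V → ℤ) × (V → ℤ) => fun v => p.1 v * p.2 v) ∘ (Prod.map Φ1 Φ2) ∘
          (fun U : V → I => ((fun w => (s (U w)).1), (fun w => (s (U w)).2))) := rfl
    have hmulmeas : Measurable (fun p : (V → ℤ) × (V → ℤ) => fun v => p.1 v * p.2 v) := by
      fun_prop
    rw [hcomp, ← Measure.map_map hmulmeas ((hΦ1m.prodMap hΦ2m).comp (hZ1meas.prodMk hZ2meas)),
      ← Measure.map_map (hΦ1m.prodMap hΦ2m) (hZ1meas.prodMk hZ2meas), hpair,
      ← Measure.map_prod_map _ _ hΦ1m hΦ2m, hΦ1law, hΦ2law]
  · -- equivariance
    intro g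
    have e1 : ∀ᵐ U ∂P, Φ1 (shift g (fun w => (s (U w)).1)) = shift g (Φ1 (fun w => (s (U w)).1)) := by
      have := hΦ1eq g
      rw [← hZ1] at this
      exact ae_of_ae_map hZ1meas.aemeasurable this
    have e2 : ∀ᵐ U ∂P, Φ2 (shift g (fun w => (s (U w)).2)) = shift g (Φ2 (fun w => (s (U w)).2)) := by
      have := hΦ2eq g
      rw [← hZ2] at this
      exact ae_of_ae_map hZ2meas.aemeasurable this
    filter_upwards [e1, e2] with U h1 h2
    funext v
    change Φ1 (shift g (fun w => (s (U w)).1)) v * Φ2 (shift g (fun w => (s (U w)).2)) v =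
      Φ1 (fun w => (s (U w)).1) (g.symm v) * Φ2 (fun w => (s (U w)).2) (g.symm v)
    rw [h1, h2]
    rfl

/-- The set of `θ` for which the free Ising measure is a factor of IID is closed under
multiplication. -/
theorem isFIID_isingFree_mul (G : SimpleGraph V) (o : V) {a b : ℝ} (ha : |a| ≤ 1) (hb : |b| ≤ 1)
    (h1 : IsFIID G (isingFree G o a)) (h2 : IsFIID G (isingFree G o b)) :
    IsFIID G (isingFree G o (a * b)) := by
  rw [← isingFree_mul G o ha hb]
  exact isFIID_mul_indep G h1 h2

end Vale.Agent.H43.P161
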