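import Vale.Agent.H43.P161.Defs
import Vale.Agent.H43.P161.Parity

namespace Vale.Agent.H43.P161

open SimpleGraph

open scoped Classical

variable {V : Type*} {G : SimpleGraph V}

lemma exists_isPath (hG : G.IsTree) (a b : V) : ∃ p : G.Walk a b, p.IsPath :=
  (hG.existsUnique_path a b).exists

lemma pathEdges_eq (hG : G.IsTree) {a b : V} (p : G.Walk a b) (hp : p.IsPath) :
    pathEdges G a b = p.edges.toFinset := by
  classical
  have hex : ∃ q : G.Walk a b, q.IsPath := ⟨p, hp⟩
  unfold pathEdges
  rw [dif_pos hex]
  have := (hG.existsUnique_path a b).unique (Classical.choose_spec hex) hp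
  rw [this]

lemma pathEdges_self (hG : G.IsTree) (a : V) : pathEdges G a a = ∅ := by
  rw [pathEdges_eq hG (Walk.nil : G.Walk a a) Walk.IsPath.nil]
  simp

lemma pathEdges_symm (hG : G.IsTree) (a b : V) : pathEdges G a b = pathEdges G b a := by
  classical
  obtain ⟨p, hp⟩ := exists_isPath hG a b
  rw [pathEdges_eq hG p hp, pathEdges_eq hG p.reverse hp.reverse, Walk.edges_reverse,
    List.toFinset_reverse]

lemma mem_edgeSet_of_mem_pathEdges (hG : G.IsTree) {a b : V} {e : Sym2 V}
    (he : e ∈ pathEdges G a b) : e ∈ G.edgeSet := by
  classical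
  obtain ⟨p, hp⟩ := exists_isPath hG a b
  rw [pathEdges_eq hG p hp, List.mem_toFinset] at he
  exact Walk.edges_subset_edgeSet p he

/-- The first step of the path from `a` to `o ≠ a`. -/
lemma pathEdges_first_step (hG : G.IsTree) {a o : V} (hne : a ≠ o) :
    ∃ u, G.Adj a u ∧ s(a, u) ∉ pathEdges G u o ∧
      pathEdges G a o = insert s(a, u) (pathEdges G u o) := by
  classical
  obtain ⟨p, hp⟩ := exists_isPath hG a o
  obtain ⟨u, h, q, rfl⟩ := Walk.exists_eq_cons_of_ne hne p
  have hq : q.IsPath := hp.of_cons
  have hau : a ∉ q.support := ((Walk.cons_isPath_iff h q).mp hp).2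
  refine ⟨u, h, ?_, ?_⟩
  · rw [pathEdges_eq hG q hq, List.mem_toFinset]
    intro hmem
    exact hau (Walk.fst_mem_support_of_mem_edges q hmem)
  · rw [pathEdges_eq hG _ hp, pathEdges_eq hG q hq, Walk.edges_cons, List.toFinset_cons]

/-- Adjacent vertices: one of the two paths from `w` extends the other by the edge. -/
lemma pathEdges_adj (hG : G.IsTree) (w : V) {u x : V} (hadj : G.Adj u x) :
    (pathEdges G w x = insert s(u, x) (pathEdges G w u) ∧ s(u, x) ∉ pathEdges G w u) ∨
    (pathEdges G w u = insert s(u, x) (pathEdges G w x) ∧ s(u, x) ∉ pathEdges G w x) := by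
  classical
  obtain ⟨p, hp⟩ := exists_isPath hG w u
  obtain ⟨q, hq⟩ := exists_isPath hG w x
  have key : ∀ {a b : V} (p : G.Walk w a) (q : G.Walk w b), p.IsPath → q.IsPath →
      ∀ hab : G.Adj a b, a ∈ q.support →
      (pathEdges G w b = insert s(a, b) (pathEdges G w a) ∧ s(a, b) ∉ pathEdges G w a) := by
    intro a b p q hp hq hab ha
    have hqe : q = p.concat hab := hG.isAcyclic.path_concat hp hq hab ha
    have hnd : q.edges.Nodup := hq.isTrail.edges_nodup
    rw [hqe, Walk.edges_concat, List.concat_eq_append, List.nodup_append] at hnd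
    refine ⟨?_, ?_⟩
    · rw [pathEdges_eq hG q hq, pathEdges_eq hG p hp, hqe, Walk.edges_concat]
      ext e
      simp only [List.concat_eq_append, List.toFinset_append, List.toFinset_cons,
        List.toFinset_nil, insert_empty_eq, Finset.mem_union, List.mem_toFinset,
        Finset.mem_singleton, Finset.mem_insert]
      tauto
    · rw [pathEdges_eq hG p hp, List.mem_toFinset]
      intro hmem
      exact hnd.2.2 _ hmem _ (List.mem_singleton.mpr rfl) rfl
  by_cases hu : u ∈ q.support
  · exact Or.inl (key p q hp hq hadj hu)
  · right
    have hx : x ∈ p.support :=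
      hG.isAcyclic.mem_support_of_ne_mem_support_of_adj_of_isPath hp hq hadj hu
    have := key q p hq hp hadj.symm hx
    rw [Sym2.eq_swap] at this
    exact this

/-- Paths in a tree: `e` lies on the path from `u` to `v` iff it lies on exactly one of the
paths from `w` to `u` and from `w` to `v`. -/
lemma mem_pathEdges_iff (hG : G.IsTree) (w u v : V) (e : Sym2 V) :
    e ∈ pathEdges G u v ↔ ¬ (e ∈ pathEdges G w u ↔ e ∈ pathEdges G w v) := by
  classical
  obtain ⟨r, hr⟩ := exists_isPath hG u v
  induction r with
  | nil => rw [pathEdges_self hG]; simp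
  | @cons u x v h r' ih =>
    have hr' : r'.IsPath := hr.of_cons
    have hur : u ∉ r'.support := ((Walk.cons_isPath_iff h r').mp hr).2
    have ih' := ih hr'
    have hE : pathEdges G u v = insert s(u, x) (pathEdges G x v) := by
      rw [pathEdges_eq hG _ hr, pathEdges_eq hG r' hr', Walk.edges_cons, List.toFinset_cons]
    have hnot : s(u, x) ∉ pathEdges G x v := by
      rw [pathEdges_eq hG r' hr', List.mem_toFinset]
      intro hmem
      exact hur (Walk.fst_mem_support_of_mem_edges r' hmem)
    rw [hE, Finset.mem_insert]
    rcases pathEdges_adj hG w h with ⟨h1, h2⟩ | ⟨h1, h2⟩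
    · by_cases hes : e = s(u, x)
      · subst hes
        have hx : s(u, x) ∈ pathEdges G w x := by rw [h1]; exact Finset.mem_insert_self _ _
        have := ih'
        tauto
      · have hx : e ∈ pathEdges G w x ↔ e ∈ pathEdges G w u := by
          rw [h1, Finset.mem_insert]
          tauto
        tauto
    · by_cases hes : e = s(u, x)
      · subst hes
        have hx : s(u, x) ∈ pathEdges G w u := by rw [h1]; exact Finset.mem_insert_self _ _
        have := ih'
        tauto
      · have hx : e ∈ pathEdges G w u ↔ e ∈ pathEdges G w x := by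
          rw [h1, Finset.mem_insert]
          tauto
        tauto

/-- If the edge `s(u, a)` lies on the path from `o` to `v`, so does the whole path from `o`
to `u`. -/
lemma pathEdges_subset_of_mem (hG : G.IsTree) {o u a v : V}
    (h : s(u, a) ∈ pathEdges G o v) : pathEdges G o u ⊆ pathEdges G o v := by
  classical
  obtain ⟨p, hp⟩ := exists_isPath hG o v
  rw [pathEdges_eq hG p hp, List.mem_toFinset] at h
  have hu : u ∈ p.support := Walk.fst_mem_support_of_mem_edges p h
  rw [pathEdges_eq hG p hp, pathEdges_eq hG _ (hp.takeUntil hu)]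
  intro e he
  rw [List.mem_toFinset] at he ⊢
  exact Walk.edges_takeUntil_subset_edges p hu he

/-- The root paths of a tree form a laminar family. -/
lemma laminar_pathEdges (hG : G.IsTree) (o : V) : Laminar (pathEdges G o) := by
  classical
  have main : ∀ n : ℕ, ∀ a : V, (pathEdges G o a).card = n →
      ∀ e ∈ pathEdges G o a, ∀ e' ∈ pathEdges G o a,
        (∀ v, e' ∈ pathEdges G o v → e ∈ pathEdges G o v) ∨
        (∀ v, e ∈ pathEdges G o v → e' ∈ pathEdges G o v) := by
    intro n
    induction n using Nat.strong_induction_on with
    | _ n ih =>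
      intro a hcard e he e' he'
      by_cases hao : a = o
      · subst hao
        rw [pathEdges_self hG] at he
        exact absurd he (Finset.notMem_empty e)
      · obtain ⟨u, hadj, hnot, hins⟩ := pathEdges_first_step hG hao
        rw [pathEdges_symm hG u o] at hnot hins
        rw [pathEdges_symm hG a o] at hins
        have hlt : (pathEdges G o u).card < n := by
          rw [← hcard, hins, Finset.card_insert_of_notMem hnot]
          exact Nat.lt_succ_self _
        rw [hins, Finset.mem_insert] at he he'
        rcases he with rfl | he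
        · rcases he' with rfl | he'
          · exact Or.inl (fun v hv => hv)
          · right
            intro v hv
            rw [Sym2.eq_swap] at hv
            exact pathEdges_subset_of_mem hG hv he'
        · rcases he' with rfl | he'
          · left
            intro v hv
            rw [Sym2.eq_swap] at hv
            exact pathEdges_subset_of_mem hG hv he
          · exact ih _ hlt u rfl e he e' he'
  intro a e he e' he'
  exact main _ a rfl e he e' he'

/-- Paths are transported by graph automorphisms. -/
lemma pathEdges_map (hG : G.IsTree) (g : G ≃g G) (u v : V) :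
    pathEdges G (g u) (g v) = (pathEdges G u v).image (Sym2.map g) := by
  classical
  obtain ⟨p, hp⟩ := exists_isPath hG u v
  have hp' : (p.map g.toHom).IsPath := hp.map g.injective
  have h2 := pathEdges_eq hG (p.map g.toHom) hp'
  rw [Walk.edges_map] at h2
  change pathEdges G (g u) (g v) = _ at h2
  rw [h2, pathEdges_eq hG p hp]
  ext e
  simp only [List.mem_toFinset, List.mem_map, Finset.mem_image]
  rfl

lemma card_pathEdges_map (hG : G.IsTree) (g : G ≃g G) (u v : V) :
    (pathEdges G (g u) (g v)).card = (pathEdges G u v).card := by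
  classical
  rw [pathEdges_map hG g u v, Finset.card_image_of_injective _ (Sym2.map.injective g.injective)]

lemma eq_of_pathEdges_eq_empty (hG : G.IsTree) {w x : V} (h : pathEdges G w x = ∅) : w = x := by
  classical
  by_contra hne
  obtain ⟨u, -, -, hins⟩ := pathEdges_first_step hG hne
  rw [h] at hins
  exact Finset.notMem_empty _ (hins ▸ Finset.mem_insert_self _ _)

/-- In a locally finite tree the spheres around any vertex are finite. -/
lemma finite_sphere (hG : G.IsTree) (hlf : ∀ v, (G.neighborSet v).Finite) (w : V) (k : ℕ) :
    {x | (pathEdges G w x).card = k}.Finite := by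
  classical
  induction k with
  | zero =>
    apply Set.Finite.subset (Set.finite_singleton w)
    intro x hx
    rw [Set.mem_ofPred_eq, Finset.card_eq_zero] at hx
    exact (eq_of_pathEdges_eq_empty hG hx).symm
  | succ k ih =>
    apply Set.Finite.subset (ih.biUnion (fun u _ => hlf u))
    intro x hx
    rw [Set.mem_ofPred_eq] at hx
    have hne : x ≠ w := by
      rintro rfl
      rw [pathEdges_self hG] at hx
      simp at hx
    obtain ⟨u, hadj, hnot, hins⟩ := pathEdges_first_step hG hne
    rw [pathEdges_symm hG w x, hins, Finset.card_insert_of_notMem hnot] at hx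
    rw [Set.mem_iUnion₂]
    refine ⟨u, ?_, ?_⟩
    · rw [Set.mem_ofPred_eq, pathEdges_symm hG w u]
      omega
    · exact hadj.symm

end Vale.Agent.H43.P161
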